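import Vale.Agent.P297.H839.Swap
import Mathlib.RingTheory.AlgebraicIndependent.AlgebraicClosure

/-!
The relative algebraic closure of a field of rational functions.
-/

set_option linter.style.haveILetI false
set_option linter.unusedSectionVars false

open Polynomial IntermediateField

namespace Vale.Agent.P297.H878

section

variable {N : Type} [Field N] [Algebra ℂ N]

theorem pair_iff (u x : N) : AlgebraicIndependent ℂ ![u, x] ↔
    Transcendental ℂ u ∧ Transcendental (IntermediateField.adjoin ℂ {u}) x := by
  rw [IntermediateField.transcendental_adjoin_iff]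
  have h1 := AlgebraicIndependent.option_iff (R := ℂ) (x := ![u]) (a := x)
  have h2 : Set.range ![u] = {u} := by simp
  have h5 : AlgebraicIndependent ℂ ![u] ↔ Transcendental ℂ u :=
    algebraicIndependent_unique_type_iff
  rw [h2, h5] at h1
  have h3 : AlgebraicIndependent ℂ ![u, x] ↔
      AlgebraicIndependent ℂ (fun o : Option (Fin 1) => o.elim x ![u]) := by
    rw [← algebraicIndependent_equiv (finSuccEquivLast (n := 1))]
    have h4 : (fun o : Option (Fin 1) => o.elim x ![u]) ∘ (finSuccEquivLast (n := 1)) =
        ![u, x] := by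
      ext i
      fin_cases i
      · rfl
      · rfl
    rw [h4]
  rw [h3, h1]

theorem exists_closure {u : N} (hu : Transcendental ℂ u) :
    ∃ L : IntermediateField ℂ N, (∀ x : N, IsAlgebraic L x → x ∈ L) ∧
      IntermediateField.adjoin ℂ {u} ≤ L ∧
      ∀ x : N, AlgebraicIndependent ℂ ![u, x] ↔ x ∉ L := by
  let M := IntermediateField.adjoin ℂ {u}
  let L : IntermediateField ℂ N := (algebraicClosure M N).restrictScalars ℂ
  have hmem : ∀ x, x ∈ L ↔ IsAlgebraic M x := fun x => mem_algebraicClosure_iff
  refine ⟨L, ?_, ?_, ?_⟩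
  · intro x hx
    have h1 : IsAlgebraic (algebraicClosure M N) x := hx
    have h2 : x ∈ algebraicClosure (algebraicClosure M N) N := mem_algebraicClosure_iff.2 h1
    rw [algebraicClosure.algebraicClosure_eq_bot, IntermediateField.mem_bot] at h2
    obtain ⟨y, rfl⟩ := h2
    exact y.2
  · intro x hx
    rw [hmem]
    exact isAlgebraic_algebraMap (⟨x, hx⟩ : M)
  · intro x
    rw [pair_iff, hmem]
    exact ⟨fun h => h.2, fun h => ⟨hu, h⟩⟩

end

end Vale.Agent.P297.H878
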