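import Vale.Agent.P297.H878.Pts

/-!
The five points: existence and distinctness.
-/

set_option linter.style.haveILetI false
set_option linter.unusedSectionVars false

open Polynomial IntermediateField

namespace Vale.Agent.P297.H878

section

variable {N : Type} [Field N] [Algebra ℂ N]

theorem rr_eq_zero {a b c d z x : N} (hx : x ≠ 0) (h1 : s1 c d z x = 0) (h2 : s2 a b z x = 0) :
    rr a b c d z = 0 := by
  unfold s1 at h1
  unfold s2 at h2
  obtain ⟨D, hD⟩ : ∃ D : N, D = 4 * (c - 2 * d * z) * (4 * (a * z - 2 * b) * z) -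
    (z ^ 2 + 4 * a) * (4 * c * z ^ 2 + 1) := ⟨_, rfl⟩
  obtain ⟨E, hE⟩ : ∃ E : N, E = 4 * (c - 2 * d * z) * (4 * (a * z - 2 * b)) -
    (z ^ 2 + 4 * a) * (4 * (c - 2 * d * z) * z) := ⟨_, rfl⟩
  obtain ⟨G, hG⟩ : ∃ G : N, G = 4 * (c - 2 * d * z) * z * (4 * (a * z - 2 * b) * z) -
    4 * (a * z - 2 * b) * (4 * c * z ^ 2 + 1) := ⟨_, rfl⟩
  have e1 : E * x + D = 0 := by
    rw [hE, hD]
    linear_combination 4 * (c - 2 * d * z) * h2 - (z ^ 2 + 4 * a) * h1
  have e2 : D * x + G = 0 := by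
    apply mul_left_cancel₀ hx
    rw [hD, hG]
    linear_combination 4 * (a * z - 2 * b) * z * h1 - (4 * c * z ^ 2 + 1) * h2
  have e3 : rr a b c d z = D ^ 2 - E * G := by
    rw [hD, hE, hG]
    unfold rr
    ring
  rw [e3]
  linear_combination D * e1 - E * e2

variable [IsAlgClosed N] (L : IntermediateField ℂ N) (hcl : ∀ x : N, IsAlgebraic L x → x ∈ L)
  {z a b c d : N} (ha : a ∈ L) (hb : b ∈ L) (hc : c ∈ L) (hd : d ∈ L)
  (h : 12 * a * c + 16 * b * d = 1)

include hcl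

include hc hd in
theorem notMem_of_s1 (hz : z ∉ L) (hD : c ^ 3 + d ^ 2 ≠ 0) {x : N} (hs : s1 c d z x = 0) :
    x ∉ L := by
  unfold s1 at hs
  intro hx
  have key := coeff_zero L hcl hz ![4 * c * x ^ 2 + 1, 4 * c * x - 8 * d * x ^ 2,
    4 * c - 8 * d * x] (by
    have h8 : ∀ n : ℕ, ∀ [n.AtLeastTwo], (OfNat.ofNat n : N) ∈ L := fun n _ => ofNat_mem L n
    intro i
    fin_cases i <;>
      simp only [Fin.mk_zero, Fin.reduceFinMk, Matrix.cons_val, Fin.mk_one] <;>
      repeat' first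
        | exact hx | exact hc | exact hd | exact L.one_mem | apply add_mem
        | apply sub_mem | apply mul_mem | apply pow_mem | exact h8 _) (by
    simp [Fin.sum_univ_succ]
    linear_combination hs)
  have k0 : 4 * c * x ^ 2 + 1 = 0 := key 0
  have k2 : 4 * c - 8 * d * x = 0 := key 2
  haveI : CharZero N := charZero_of_injective_algebraMap (algebraMap ℂ N).injective
  have k3 : c = 2 * d * x := by
    have h4 : (4 : N) * (c - 2 * d * x) = 0 := by linear_combination k2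
    rcases mul_eq_zero.1 h4 with h5 | h5
    · exact absurd h5 (by norm_num)
    · exact sub_eq_zero.1 h5
  apply hD
  rw [k3] at k0 ⊢
  linear_combination d ^ 2 * k0

include ha hb in
theorem notMem_of_s2 (hz : z ∉ L) (hD : a ^ 3 + b ^ 2 ≠ 0) {x : N} (hs : s2 a b z x = 0) :
    x ∉ L := by
  unfold s2 at hs
  intro hx
  have key := coeff_zero L hcl hz ![4 * a * x ^ 2 - 8 * b * x, 4 * a * x - 8 * b,
    x ^ 2 + 4 * a] (by
    have h8 : ∀ n : ℕ, ∀ [n.AtLeastTwo], (OfNat.ofNat n : N) ∈ L := fun n _ => ofNat_mem L n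
    intro i
    fin_cases i <;>
      simp only [Fin.mk_zero, Fin.reduceFinMk, Matrix.cons_val, Fin.mk_one] <;>
      repeat' first
        | exact hx | exact ha | exact hb | exact L.one_mem | apply add_mem
        | apply sub_mem | apply mul_mem | apply pow_mem | exact h8 _) (by
    simp [Fin.sum_univ_succ]
    linear_combination hs)
  have k1 : 4 * a * x - 8 * b = 0 := key 1
  have k2 : x ^ 2 + 4 * a = 0 := key 2
  haveI : CharZero N := charZero_of_injective_algebraMap (algebraMap ℂ N).injective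
  have k3 : a * x = 2 * b := by
    have h4 : (4 : N) * (a * x - 2 * b) = 0 := by linear_combination k1
    rcases mul_eq_zero.1 h4 with h5 | h5
    · exact absurd h5 (by norm_num)
    · exact sub_eq_zero.1 h5
  apply hD
  have h4 : (4 : N) * (a ^ 3 + b ^ 2) = 0 := by
    linear_combination a ^ 2 * k2 - (a * x + 2 * b) * k3
  rcases mul_eq_zero.1 h4 with h5 | h5
  · exact absurd h5 (by norm_num)
  · exact h5

include ha hb hc hd h in
theorem exists_points (hz : z ∉ L) (hD₁ : a ^ 3 + b ^ 2 ≠ 0) (hD₂ : c ^ 3 + d ^ 2 ≠ 0) :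
    ∃ x : Fin 5 → N, x 0 = z ∧ Function.Injective x ∧ (∀ i, x i ∉ L) ∧
      (∀ i, 2 * x i + z ≠ 0) ∧
      s1 c d z (x 1) = 0 ∧ s1 c d z (x 2) = 0 ∧ s2 a b z (x 3) = 0 ∧ s2 a b z (x 4) = 0 ∧
      x 1 + x 2 = - z ∧ 4 * (c - 2 * d * z) * (x 1 * x 2) = 4 * c * z ^ 2 + 1 ∧
      (z ^ 2 + 4 * a) * (x 3 + x 4) = - (4 * (a * z - 2 * b)) ∧
      (z ^ 2 + 4 * a) * (x 3 * x 4) = 4 * (a * z - 2 * b) * z := by
  haveI : CharZero N := charZero_of_injective_algebraMap (algebraMap ℂ N).injective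
  have hz0 := z_ne L hz
  have hs := s_ne L hcl hc hd h hz
  have hr := r_ne L hcl ha hb h hz
  have hk := k_ne L hcl ha hz
  have hp := p_ne L hcl ha hb hz
  have hq := q_ne L hcl hc hd hz
  have hm := m_ne L hcl hc hd hz
  have hn := n_ne L hcl ha hb hz
  have hrr := rr_ne L hcl ha hb hc hd h hz hD₂
  obtain ⟨δ, hδ⟩ := IsAlgClosed.exists_pow_nat_eq (- qq c d z / (c - 2 * d * z)) two_pos
  obtain ⟨ε, hε⟩ := IsAlgClosed.exists_pow_nat_eq (- 4 * (a * z - 2 * b) * pp a b z) two_pos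
  have hδ' : (c - 2 * d * z) * δ ^ 2 = - qq c d z := by
    rw [hδ]
    field_simp
  have hδ0 : δ ≠ 0 := by
    rintro rfl
    rw [zero_pow two_ne_zero, mul_zero] at hδ'
    exact hq (neg_eq_zero.1 hδ'.symm)
  have hε0 : ε ≠ 0 := by
    rintro rfl
    rw [zero_pow two_ne_zero] at hε
    have h1 := mul_ne_zero (mul_ne_zero (show (-4 : N) ≠ 0 by norm_num) hr) hp
    exact h1 hε.symm
  obtain ⟨k, hkdef⟩ : ∃ k : N, k = z ^ 2 + 4 * a := ⟨_, rfl⟩
  rw [← hkdef] at hk
  obtain ⟨x₁, hx₁⟩ : ∃ x₁ : N, x₁ = (-z + δ) / 2 := ⟨_, rfl⟩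
  obtain ⟨x₂, hx₂⟩ : ∃ x₂ : N, x₂ = (-z - δ) / 2 := ⟨_, rfl⟩
  obtain ⟨x₃, hx₃⟩ : ∃ x₃ : N, x₃ = (-2 * (a * z - 2 * b) + ε) / k := ⟨_, rfl⟩
  obtain ⟨x₄, hx₄⟩ : ∃ x₄ : N, x₄ = (-2 * (a * z - 2 * b) - ε) / k := ⟨_, rfl⟩
  have e1 : x₁ + x₂ = -z := by rw [hx₁, hx₂]; ring
  have e1' : x₁ - x₂ = δ := by rw [hx₁, hx₂]; ring
  have e2 : 4 * (c - 2 * d * z) * (x₁ * x₂) = 4 * c * z ^ 2 + 1 := by
    rw [hx₁, hx₂]
    unfold qq at hδ'
    linear_combination - hδ'
  have e3 : k * (x₃ + x₄) = - (4 * (a * z - 2 * b)) := by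
    rw [hx₃, hx₄]
    field_simp
    ring
  have e3' : k * (x₃ - x₄) = 2 * ε := by
    rw [hx₃, hx₄]
    field_simp
    ring
  have e4 : k * (x₃ * x₄) = 4 * (a * z - 2 * b) * z := by
    apply mul_left_cancel₀ hk
    have h1 : k * x₃ = -2 * (a * z - 2 * b) + ε := by
      rw [hx₃]
      field_simp
    have h2 : k * x₄ = -2 * (a * z - 2 * b) - ε := by
      rw [hx₄]
      field_simp
    unfold pp at hε
    have h3 : k * (k * (x₃ * x₄)) = (k * x₃) * (k * x₄) := by ring
    rw [h3, h1, h2, hkdef]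
    linear_combination - hε
  have r1 : s1 c d z x₁ = 0 := by
    have h1 : x₂ = -z - x₁ := by linear_combination e1
    rw [h1] at e2
    unfold s1
    linear_combination - e2
  have r2 : s1 c d z x₂ = 0 := by
    have h1 : x₁ = -z - x₂ := by linear_combination e1
    rw [h1] at e2
    unfold s1
    linear_combination - e2
  have r3 : s2 a b z x₃ = 0 := by
    unfold s2
    rw [← hkdef]
    linear_combination x₃ * e3 - e4
  have r4 : s2 a b z x₄ = 0 := by
    unfold s2
    rw [← hkdef]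
    linear_combination x₄ * e3 - e4
  have n1 := notMem_of_s1 L hcl hc hd hz hD₂ r1
  have n2 := notMem_of_s1 L hcl hc hd hz hD₂ r2
  have n3 := notMem_of_s2 L hcl ha hb hz hD₁ r3
  have n4 := notMem_of_s2 L hcl ha hb hz hD₁ r4
  have hs1z : ∀ x, s1 c d z x = 0 → z ≠ x := by
    rintro x hx rfl
    rw [s1_self] at hx
    exact hm (neg_eq_zero.1 hx)
  have hs2z : ∀ x, s2 a b z x = 0 → z ≠ x := by
    rintro x hx rfl
    rw [s2_self] at hx
    exact mul_ne_zero hz0 hn hx
  have h12 : ∀ x y, x ∉ L → s1 c d z x = 0 → s2 a b z y = 0 → x ≠ y := by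
    rintro x y hxL hx hy rfl
    exact hrr (rr_eq_zero (z_ne L hxL) hx hy)
  have h1h : ∀ x, s1 c d z x = 0 → 2 * x + z ≠ 0 := by
    intro x hx h0
    rw [s1_half c d z x h0] at hx
    exact hq hx
  have h2h : ∀ x, s2 a b z x = 0 → 2 * x + z ≠ 0 := by
    intro x hx h0
    have h1 := s2_half a b z x h0
    rw [hx, mul_zero] at h1
    exact mul_ne_zero hz0 hn h1.symm
  have d12 : x₁ ≠ x₂ := by
    intro h0
    rw [h0, sub_self] at e1'
    exact hδ0 e1'.symm
  have d34 : x₃ ≠ x₄ := by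
    intro h0
    rw [h0, sub_self, mul_zero] at e3'
    exact mul_ne_zero two_ne_zero hε0 e3'.symm
  refine ⟨![z, x₁, x₂, x₃, x₄], rfl, ?_, ?_, ?_, r1, r2, r3, r4, e1, e2, ?_, ?_⟩
  · have a1 := hs1z _ r1
    have a2 := hs1z _ r2
    have a3 := hs2z _ r3
    have a4 := hs2z _ r4
    have b13 := h12 _ _ n1 r1 r3
    have b14 := h12 _ _ n1 r1 r4
    have b23 := h12 _ _ n2 r2 r3
    have b24 := h12 _ _ n2 r2 r4
    intro i i' hi
    fin_cases i <;> fin_cases i' <;> first
      | rfl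
      | exact absurd hi a1 | exact absurd hi a1.symm | exact absurd hi a2
      | exact absurd hi a2.symm | exact absurd hi a3 | exact absurd hi a3.symm
      | exact absurd hi a4 | exact absurd hi a4.symm | exact absurd hi b13
      | exact absurd hi b13.symm | exact absurd hi b14 | exact absurd hi b14.symm
      | exact absurd hi b23 | exact absurd hi b23.symm | exact absurd hi b24
      | exact absurd hi b24.symm | exact absurd hi d12 | exact absurd hi d12.symm
      | exact absurd hi d34 | exact absurd hi d34.symm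
  · intro i
    fin_cases i
    · exact hz
    · exact n1
    · exact n2
    · exact n3
    · exact n4
  · intro i
    fin_cases i
    · change 2 * z + z ≠ 0
      have h1 : 2 * z + z = 3 * z := by ring
      rw [h1]
      exact mul_ne_zero (by norm_num) hz0
    · exact h1h _ r1
    · exact h1h _ r2
    · exact h2h _ r3
    · exact h2h _ r4
  · rw [← hkdef]
    exact e3
  · rw [← hkdef]
    exact e4

end

end Vale.Agent.P297.H878
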