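import Vale.Agent.P297.H878.Fibre
import Vale.Agent.P297.H878.Clos
import Vale.Agent.P297.H878.Five

/-!
Ring-valued points of the curve.
-/

set_option linter.style.haveILetI false
set_option linter.unusedSectionVars false

open CategoryTheory AlgebraicGeometry IntermediateField Polynomial

namespace Vale.Agent.P297.H878

open Vale.Agent.P297 Vale.Agent.P297.H839 Vale.Agent.P297.H516

theorem map_pp {A B : Type} [CommRing A] [CommRing B] (φ : A →+* B) (a b x : A) :
    φ (pp a b x) = pp (φ a) (φ b) (φ x) := by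
  unfold pp
  simp only [map_add, map_mul, map_pow, map_ofNat]

theorem map_qq {A B : Type} [CommRing A] [CommRing B] (φ : A →+* B) (c d x : A) :
    φ (qq c d x) = qq (φ c) (φ d) (φ x) := by
  unfold qq
  simp only [map_add, map_mul, map_pow, map_ofNat, map_one]

theorem map_mm {A B : Type} [CommRing A] [CommRing B] (φ : A →+* B) (c d x : A) :
    φ (mm c d x) = mm (φ c) (φ d) (φ x) := by
  unfold mm
  simp only [map_sub, map_mul, map_pow, map_ofNat, map_one]

theorem map_nn {A B : Type} [CommRing A] [CommRing B] (φ : A →+* B) (a b x : A) :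
    φ (nn a b x) = nn (φ a) (φ b) (φ x) := by
  unfold nn
  simp only [map_sub, map_add, map_mul, map_pow, map_ofNat]

/-- two homomorphisms on `ℂ(S)` that agree on `S` -/
theorem agree_on_gen {K B : Type} [Field K] [Algebra ℂ K] [CommRing B] [Algebra ℂ B]
    (S : Set K) (φ ψ : IntermediateField.adjoin ℂ S →ₐ[ℂ] B)
    (h : ∀ s (hs : s ∈ S), φ ⟨s, IntermediateField.subset_adjoin _ _ hs⟩ =
      ψ ⟨s, IntermediateField.subset_adjoin _ _ hs⟩) : φ = ψ := by
  rcases subsingleton_or_nontrivial B with hB | hB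
  · apply AlgHom.ext
    intro x
    exact Subsingleton.elim _ _
  apply AlgHom.ext
  rintro ⟨x, hx⟩
  induction hx using IntermediateField.adjoin_induction with
  | mem x hx => exact h x hx
  | algebraMap r =>
    have h1 : (⟨algebraMap ℂ K r, IntermediateField.algebraMap_mem _ r⟩ :
      IntermediateField.adjoin ℂ S) = algebraMap ℂ _ r := rfl
    rw [h1, AlgHom.commutes, AlgHom.commutes]
  | add x y hx hy h1 h2 =>
    have h3 : (⟨x + y, add_mem hx hy⟩ : IntermediateField.adjoin ℂ S) = ⟨x, hx⟩ + ⟨y, hy⟩ := rfl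
    rw [h3, map_add, map_add, h1, h2]
  | mul x y hx hy h1 h2 =>
    have h3 : (⟨x * y, mul_mem hx hy⟩ : IntermediateField.adjoin ℂ S) = ⟨x, hx⟩ * ⟨y, hy⟩ := rfl
    rw [h3, map_mul, map_mul, h1, h2]
  | inv x hx h1 =>
    by_cases h0 : x = 0
    · subst h0
      have h3 : (⟨(0 : K)⁻¹, inv_mem hx⟩ : IntermediateField.adjoin ℂ S) = 0 :=
        Subtype.ext inv_zero
      rw [h3, map_zero, map_zero]
    · have h2 : (⟨x, hx⟩ : IntermediateField.adjoin ℂ S) * ⟨x⁻¹, inv_mem hx⟩ = 1 :=
        Subtype.ext (mul_inv_cancel₀ h0)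
      have h3 := congrArg φ h2
      have h4 := congrArg ψ h2
      rw [map_mul, map_one] at h3 h4
      rw [h1] at h3
      exact left_inv_eq_right_inv ((mul_comm _ _).trans h3) h4

/-- A point of `K = ℂ(l, x)(y)` with values in a ring. -/
theorem embed {K B : Type} [Field K] [Algebra ℂ K] [CommRing B] [Algebra ℂ B]
    (l x y : K) (hind : AlgebraicIndependent ℂ ![l, x])
    (t a b c d : IntermediateField.adjoin ℂ {l}) (ht0 : t ≠ 0)
    (hy : (t : K) * y ^ 2 = pp (a : K) b x * qq (c : K) d x)
    (hy2 : y ^ 2 ∈ IntermediateField.adjoin ℂ (Set.range ![l, x]))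
    (hyK : y ∉ IntermediateField.adjoin ℂ (Set.range ![l, x]))
    (hspan : ∀ k : K, ∃ α ∈ IntermediateField.adjoin ℂ (Set.range ![l, x]),
      ∃ β ∈ IntermediateField.adjoin ℂ (Set.range ![l, x]), k = α + β * y)
    (lam : IntermediateField.adjoin ℂ {l} →ₐ[ℂ] B) (x' y' : B)
    (hu : ∀ w : MvPolynomial (Fin 2) ℂ, w ≠ 0 → IsUnit (MvPolynomial.aeval
      ![lam ⟨l, IntermediateField.mem_adjoin_simple_self ℂ l⟩, x'] w))
    (hy' : lam t * y' ^ 2 = pp (lam a) (lam b) x' * qq (lam c) (lam d) x') :
    ∃ Θ : K →ₐ[ℂ] B, (∀ e : IntermediateField.adjoin ℂ {l}, Θ e = lam e) ∧ Θ x = x' ∧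
      Θ y = y' := by
  obtain ⟨τ, hτ⟩ := exists_tau ![l, x] hind
    ![lam ⟨l, IntermediateField.mem_adjoin_simple_self ℂ l⟩, x'] hu
  have hle : IntermediateField.adjoin ℂ {l} ≤ IntermediateField.adjoin ℂ (Set.range ![l, x]) := by
    rw [IntermediateField.adjoin_le_iff]
    rintro _ rfl
    exact IntermediateField.subset_adjoin _ _ ⟨0, rfl⟩
  have hτl : τ.comp (IntermediateField.inclusion hle) = lam := by
    apply agree_on_gen
    rintro _ rfl
    exact hτ 0
  have hτe : ∀ e : IntermediateField.adjoin ℂ {l}, τ (IntermediateField.inclusion hle e) = lam e :=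
    fun e => DFunLike.congr_fun hτl e
  let x₀ : IntermediateField.adjoin ℂ (Set.range ![l, x]) :=
    ⟨x, IntermediateField.subset_adjoin _ _ ⟨1, rfl⟩⟩
  have hτx : τ x₀ = x' := hτ 1
  have htu : IsUnit (lam t) := (isUnit_iff_ne_zero.2 ht0).map lam
  have key : y' ^ 2 = τ ⟨y ^ 2, hy2⟩ := by
    apply htu.mul_left_cancel
    rw [hy']
    have h1 : IntermediateField.inclusion hle t * ⟨y ^ 2, hy2⟩ =
        pp (IntermediateField.inclusion hle a) (IntermediateField.inclusion hle b) x₀ *
        qq (IntermediateField.inclusion hle c) (IntermediateField.inclusion hle d) x₀ := by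
      apply Subtype.ext
      exact hy
    have h2 := congrArg τ h1
    rw [map_mul, map_mul, hτe] at h2
    rw [h2]
    have h3 := map_pp τ.toRingHom (IntermediateField.inclusion hle a)
      (IntermediateField.inclusion hle b) x₀
    have h4 := map_qq τ.toRingHom (IntermediateField.inclusion hle c)
      (IntermediateField.inclusion hle d) x₀
    have h5 : τ (pp (IntermediateField.inclusion hle a) (IntermediateField.inclusion hle b) x₀) =
      pp (lam a) (lam b) x' := by
      refine h3.trans ?_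
      change pp (τ _) (τ _) (τ _) = _
      rw [hτe, hτe, hτx]
    have h6 : τ (qq (IntermediateField.inclusion hle c) (IntermediateField.inclusion hle d) x₀) =
      qq (lam c) (lam d) x' := by
      refine h4.trans ?_
      change qq (τ _) (τ _) (τ _) = _
      rw [hτe, hτe, hτx]
    rw [h5, h6]
  obtain ⟨Θ, hΘ, hΘy⟩ := exists_theta _ y hy2 hyK hspan τ y' key
  refine ⟨Θ, ?_, ?_, hΘy⟩
  · intro e
    have h1 := hΘ (IntermediateField.inclusion hle e)
    rw [hτe] at h1
    exact h1
  · have h1 := hΘ x₀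
    rw [hτx] at h1
    exact h1

end Vale.Agent.P297.H878
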