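import Vale.Agent.P297.H516.Theta

/-!
Fibres of finite maps to rational varieties.
-/

set_option linter.unusedSectionVars false
set_option linter.style.haveILetI false

open CategoryTheory AlgebraicGeometry IntermediateField Polynomial

namespace Vale.Agent.P297.H878

open Vale.Agent.P297 Vale.Agent.P297.H839 Vale.Agent.P297.H516

theorem eq_prod_of_roots {N : Type} [Field N] {m : ℕ} (P : N[X]) (hP : P.Monic)
    (hdeg : P.natDegree ≤ m) (a : Fin m → N) (ha : Function.Injective a)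
    (hroot : ∀ i, P.IsRoot (a i)) : P = ∏ i, (X - Polynomial.C (a i)) := by
  apply Polynomial.eq_of_monic_of_dvd_of_natDegree_le
  · exact Polynomial.monic_prod_of_monic _ _ (fun i _ => Polynomial.monic_X_sub_C _)
  · exact hP
  · apply Finset.prod_dvd_of_coprime
    · intro i _ i' _ hne
      exact Polynomial.pairwise_coprime_X_sub_C ha hne
    · intro i _
      rw [Polynomial.dvd_iff_isRoot]
      exact hroot i
  · rw [Polynomial.natDegree_prod_of_monic _ _ (fun i _ => Polynomial.monic_X_sub_C _)]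
    simpa using hdeg

section

variable {S : Scheme.{0}} {f : S ⟶ Spec (.of ℂ)} [IsProper f] {C : Type} [CommRing C] [Algebra ℂ C]
  [Algebra.FiniteType ℂ C] {j : Spec (.of C) ⟶ S}
  {hj : j ≫ f = Spec.map (CommRingCat.ofHom (algebraMap ℂ C))}

theorem fibre_good_aux {K N : Type} [Field K] [Algebra ℂ K] [Field N] [Algebra ℂ N]
    {d : ℕ} (r : Fin d → K) (hr : AlgebraicIndependent ℂ r)
    (μ : (IntermediateField.adjoin ℂ (Set.range r))[X]) (hμ : μ.Monic)
    (e : AdjoinRoot μ ≃ₐ[ℂ] K)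
    (heof : ∀ k : IntermediateField.adjoin ℂ (Set.range r), e (AdjoinRoot.of μ k) = k) (θ : K)
    (heroot : e (AdjoinRoot.root μ) = θ) {m : ℕ} (φ : Fin m → (K →ₐ[ℂ] N))
    (ψ : IntermediateField.adjoin ℂ (Set.range r) →ₐ[ℂ] N)
    (hψ : ∀ i (k : IntermediateField.adjoin ℂ (Set.range r)), φ i k = ψ k)
    (hinj : Function.Injective fun i => φ i θ)
    (hprod : μ.map ψ.toRingHom = ∏ i, (X - Polynomial.C (φ i θ)))
    (ι : C →ₐ[ℂ] K) :
    ∑ i, Finsupp.single ((φ i).comp ι) (1 : ℤ) ∈ Good f j hj (Rat f) N := by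
  let r' : Fin d → IntermediateField.adjoin ℂ (Set.range r) :=
    fun k => ⟨r k, IntermediateField.subset_adjoin _ _ ⟨k, rfl⟩⟩
  have hr' : AlgebraicIndependent ℂ r' := by
    apply AlgebraicIndependent.of_comp (IntermediateField.adjoin ℂ (Set.range r)).val
    exact hr
  have hr'top : IntermediateField.adjoin ℂ (Set.range r') = ⊤ := by
    apply adjoin_subtype_top (Set.range r) _ rfl
    rintro a ⟨k, rfl⟩
    exact ⟨r' k, ⟨k, rfl⟩, rfl⟩
  obtain ⟨g, hg⟩ : ∃ g : MvPolynomial (Fin d) ℂ →ₐ[ℂ] N,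
    g = ψ.comp (MvPolynomial.aeval r') := ⟨_, rfl⟩
  have hg0 : ∀ w, w ≠ 0 → g w ≠ 0 := by
    intro w hw h0
    apply hw
    apply hr'
    rw [map_zero]
    apply ψ.toRingHom.injective
    rw [map_zero, ← h0, hg]
    rfl
  obtain ⟨κ, hκ⟩ := exists_tau r hr
    (fun k => algebraMap (MvPolynomial (Fin d) ℂ) (Loc g) (MvPolynomial.X k)) (by
      intro w hw
      apply isUnit_loc
      have h1 : ((toN g).comp (MvPolynomial.aeval (R := ℂ)
          (fun k => algebraMap (MvPolynomial (Fin d) ℂ) (Loc g) (MvPolynomial.X k)))) = g := by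
        apply MvPolynomial.algHom_ext
        intro i
        rw [AlgHom.comp_apply, MvPolynomial.aeval_X, toN_algebraMap]
      have h2 := DFunLike.congr_fun h1 w
      rw [AlgHom.comp_apply] at h2
      rw [h2]
      exact hg0 w hw)
  have hκψ : ∀ k, toN g (κ k) = ψ k := by
    have h1 := agree_on_adjoin ((toN g).comp κ) ψ (Set.range r') (by
      rintro _ ⟨k, rfl⟩
      rw [AlgHom.comp_apply]
      have h2 : κ (r' k) = algebraMap (MvPolynomial (Fin d) ℂ) (Loc g) (MvPolynomial.X k) := hκ k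
      rw [h2, toN_algebraMap, hg, AlgHom.comp_apply, MvPolynomial.aeval_X])
    intro k
    exact h1 k (by rw [hr'top]; trivial)
  have hcomp : (toN g).toRingHom.comp κ.toRingHom = ψ.toRingHom := RingHom.ext fun k => hκψ k
  have hprod' : (μ.map κ.toRingHom).map (toN g).toRingHom =
      ∏ i, (X - Polynomial.C (φ i θ)) := by
    rw [Polynomial.map_map, hcomp, hprod]
  have hroot : ∀ i, (μ.map κ.toRingHom).eval₂ (toN g : Loc g →+* N) (φ i θ) = 0 := by
    intro i
    have h1 := congrArg (Polynomial.eval (φ i θ)) hprod'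
    rw [Polynomial.eval_map, Polynomial.eval_prod, Finset.prod_eq_zero (Finset.mem_univ i)
      (by simp)] at h1
    exact h1
  have h := good_roots (f := f) (j := j) (hj := hj) (μ.map κ.toRingHom) (hμ.map _)
    (fun i => φ i θ) hinj hprod' (((bcMap κ μ).comp e.symm.toAlgHom).comp ι)
    (fun i => AdjoinRoot.liftAlgHom (μ.map κ.toRingHom) (toN g) (φ i θ) (hroot i))
    (fun i k => AdjoinRoot.liftAlgHom_of _ _ _ _ _) (fun i => AdjoinRoot.liftAlgHom_root _ _ _ _)
  have h2 : ∀ i, (AdjoinRoot.liftAlgHom (μ.map κ.toRingHom) (toN g) (φ i θ) (hroot i)).comp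
      (((bcMap κ μ).comp e.symm.toAlgHom).comp ι) = (φ i).comp ι := by
    intro i
    have h3 : (AdjoinRoot.liftAlgHom (μ.map κ.toRingHom) (toN g) (φ i θ) (hroot i)).comp
        (bcMap κ μ) = (φ i).comp e.toAlgHom := by
      apply AdjoinRoot.algHom_ext'
      · apply AlgHom.ext
        intro k
        change AdjoinRoot.liftAlgHom (μ.map κ.toRingHom) (toN g) (φ i θ) (hroot i)
          (bcMap κ μ (AdjoinRoot.of μ k)) = φ i (e (AdjoinRoot.of μ k))
        rw [heof, hψ i k]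
        have h4 : bcMap κ μ (AdjoinRoot.of μ k) = AdjoinRoot.of (μ.map κ.toRingHom) (κ k) :=
          bcMap_of κ μ k
        rw [h4, ← hκψ]
        exact AdjoinRoot.liftAlgHom_of _ _ _ _ _
      · change AdjoinRoot.liftAlgHom (μ.map κ.toRingHom) (toN g) (φ i θ) (hroot i)
          (bcMap κ μ (AdjoinRoot.root μ)) = φ i (e (AdjoinRoot.root μ))
        rw [heroot, bcMap_root]
        exact AdjoinRoot.liftAlgHom_root _ _ _ _
    apply AlgHom.ext
    intro x
    have h4 := DFunLike.congr_fun h3 (e.symm (ι x))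
    refine h4.trans ?_
    change φ i (e (e.symm (ι x))) = φ i (ι x)
    rw [AlgEquiv.apply_symm_apply]
  simp only [h2] at h
  exact h

/-- The fibres of a finite map to a rational variety are constant. -/
theorem fibre_good {K N : Type} [Field K] [Algebra ℂ K] [Field N] [Algebra ℂ N]
    (F₁ : IntermediateField ℂ K) (hF₁ : IsRational F₁) (θ : K)
    (htop : F₁ ⊔ IntermediateField.adjoin ℂ {θ} = ⊤) (m : ℕ) (w : F₁[X]) (hw0 : w ≠ 0)
    (hwdeg : w.natDegree ≤ m) (hwθ : aeval θ w = 0) (φ : Fin m → (K →ₐ[ℂ] N))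
    (hφ : ∀ i i' (k : K), k ∈ F₁ → φ i k = φ i' k) (hinj : Function.Injective fun i => φ i θ)
    (ι : C →ₐ[ℂ] K) :
    ∑ i, Finsupp.single ((φ i).comp ι) (1 : ℤ) ∈ Good f j hj (Rat f) N := by
  rcases Nat.eq_zero_or_pos m with hm | hm
  · subst hm
    rw [Fin.sum_univ_zero]
    exact AddSubgroup.zero_mem _
  haveI : Nonempty (Fin m) := ⟨⟨0, hm⟩⟩
  obtain ⟨i₀⟩ : Nonempty (Fin m) := inferInstance
  have hint : IsIntegral F₁ θ := by
    rw [← isAlgebraic_iff_isIntegral]
    exact ⟨w, hw0, hwθ⟩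
  obtain ⟨μ, hμ⟩ : ∃ μ, μ = minpoly F₁ θ := ⟨_, rfl⟩
  have hμm : μ.Monic := by rw [hμ]; exact minpoly.monic hint
  have hμ0 : aeval θ μ = 0 := by rw [hμ]; exact minpoly.aeval F₁ θ
  have hμdeg : μ.natDegree ≤ m := by
    rw [hμ]
    exact (Polynomial.natDegree_le_of_dvd (minpoly.dvd F₁ θ hwθ) hw0).trans hwdeg
  haveI : Fact (Irreducible μ) := ⟨by rw [hμ]; exact minpoly.irreducible hint⟩
  -- the restriction to `F₁`
  obtain ⟨ψ, hψ⟩ : ∃ ψ : F₁ →ₐ[ℂ] N, ∀ i (k : F₁), φ i k = ψ k :=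
    ⟨(φ i₀).comp F₁.val, fun i k => hφ i i₀ k k.2⟩
  have hroot : ∀ i, (μ.map ψ.toRingHom).IsRoot (φ i θ) := by
    intro i
    rw [IsRoot, Polynomial.eval_map]
    have h2 := congrArg (φ i) hμ0
    rw [map_zero, aeval_def] at h2
    have h3 := Polynomial.hom_eval₂ μ (algebraMap F₁ K) (φ i).toRingHom θ
    have h4 : (φ i).toRingHom.comp (algebraMap F₁ K) = ψ.toRingHom := RingHom.ext fun k => hψ i k
    rw [h4] at h3
    exact h3.symm.trans h2
  have hprod : μ.map ψ.toRingHom = ∏ i, (X - Polynomial.C (φ i θ)) :=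
    eq_prod_of_roots _ (hμm.map _) (by rw [hμm.natDegree_map]; exact hμdeg) _ hinj hroot
  -- the presentation of `K`
  obtain ⟨e, heof, heroot⟩ : ∃ e : AdjoinRoot μ ≃ₐ[ℂ] K,
      (∀ k : F₁, e (AdjoinRoot.of μ k) = k) ∧ e (AdjoinRoot.root μ) = θ := by
    let e₀ : AdjoinRoot μ →ₐ[ℂ] K := AdjoinRoot.liftAlgHom μ F₁.val θ hμ0
    have hof : ∀ k : F₁, e₀ (AdjoinRoot.of μ k) = k := fun k =>
      AdjoinRoot.liftAlgHom_of μ F₁.val θ hμ0 k
    have hrt : e₀ (AdjoinRoot.root μ) = θ := AdjoinRoot.liftAlgHom_root μ F₁.val θ hμ0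
    have he₀ : Function.Bijective e₀ := by
      refine ⟨e₀.toRingHom.injective, ?_⟩
      have h1 : (F₁ ⊔ IntermediateField.adjoin ℂ {θ} : IntermediateField ℂ K) ≤
          e₀.fieldRange := by
        refine sup_le ?_ ?_
        · intro k hk
          exact ⟨AdjoinRoot.of μ ⟨k, hk⟩, hof ⟨k, hk⟩⟩
        · rw [IntermediateField.adjoin_le_iff]
          rintro _ rfl
          exact ⟨AdjoinRoot.root μ, hrt⟩
      rw [htop] at h1
      intro k
      obtain ⟨x, hx⟩ := h1 (IntermediateField.mem_top (x := k))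
      exact ⟨x, hx⟩
    exact ⟨AlgEquiv.ofBijective e₀ he₀, hof, hrt⟩
  -- the parameters
  obtain ⟨d, r, hr, hF⟩ := hF₁
  subst hF
  exact fibre_good_aux r hr μ hμm e heof θ heroot φ ψ hψ hinj hprod ι

end

end Vale.Agent.P297.H878
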