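import Vale.Agent.P297.H878.Alg

/-!
The values of the two maps at the points of the fibres.
-/

set_option linter.style.haveILetI false
set_option linter.unusedSectionVars false

namespace Vale.Agent.P297.H878

section

variable {N : Type} [Field N] [CharZero N]

theorem five' {a b c d z x : N} (h : 12 * a * c + 16 * b * d = 1)
    (hs : (x - z) * s1 c d z x * s2 a b z x = 0) :
    qq c d z * (x + 2 * z) ^ 2 * pp a b x = pp a b z * (2 * x + z) ^ 2 * qq c d x := by
  have h1 := five a b c d z x h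
  have h2 : (4 : N) * (qq c d z * (x + 2 * z) ^ 2 * pp a b x -
      pp a b z * (2 * x + z) ^ 2 * qq c d x) = 0 := by
    linear_combination h1 + 3 * hs
  rcases mul_eq_zero.1 h2 with h3 | h3
  · exact absurd h3 (by norm_num)
  · exact sub_eq_zero.1 h3

/-- the values of `y` at the points of the fibres -/
theorem sq_value {t a b c d z y₀ x : N}
    (hy₀ : t * y₀ ^ 2 = pp a b z * qq c d z)
    (h5 : qq c d z * (x + 2 * z) ^ 2 * pp a b x = pp a b z * (2 * x + z) ^ 2 * qq c d x) :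
    t * (2 * y₀ * z + y₀ * x) ^ 2 * pp a b x =
      (pp a b z * z + 2 * pp a b z * x) ^ 2 * qq c d x := by
  linear_combination (x + 2 * z) ^ 2 * pp a b x * hy₀ + pp a b z * h5

theorem v1_value {a b c d z y₀ x y : N} (hpz : pp a b z ≠ 0) (hpx : pp a b x ≠ 0)
    (hsz : c - 2 * d * z ≠ 0) (hx : 2 * x + z ≠ 0)
    (hs : s1 c d z x = 0) (h : 12 * a * c + 16 * b * d = 1)
    (hy : y * (pp a b z * z + 2 * pp a b z * x) = - ((2 * y₀ * z + y₀ * x) * pp a b x)) :
    (c - 2 * d * x) / pp a b x = (c - 2 * d * z) / pp a b z ∧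
      y * mm c d x / pp a b x ^ 2 = y₀ * mm c d z / pp a b z ^ 2 := by
  have f1 := fib1 a b c d z x h
  rw [hs, mul_zero] at f1
  have f2 : (c - 2 * d * x) * pp a b z = (c - 2 * d * z) * pp a b x := by
    rcases mul_eq_zero.1 f1 with h3 | h3
    · exact absurd h3 (by norm_num)
    · exact sub_eq_zero.1 h3
  have f3 := sign1 c d z x
  rw [hs, mul_zero] at f3
  refine ⟨?_, ?_⟩
  · rw [div_eq_div_iff hpx hpz]
    exact f2
  · rw [div_eq_div_iff (pow_ne_zero 2 hpx) (pow_ne_zero 2 hpz)]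
    apply mul_left_cancel₀ (mul_ne_zero hx hsz)
    linear_combination (mm c d x * pp a b z * (c - 2 * d * z)) * hy -
      (y₀ * pp a b x * pp a b z) * f3 + (y₀ * pp a b x * (2 * x + z) * mm c d z) * f2

theorem v2_value {a b c d z y₀ x y : N} (hpz : pp a b z ≠ 0) (hqz : qq c d z ≠ 0)
    (hqx : qq c d x ≠ 0) (hr : z ^ 2 * (a * z - 2 * b) ≠ 0) (hx : 2 * x + z ≠ 0)
    (hs : s2 a b z x = 0) (h : 12 * a * c + 16 * b * d = 1)
    (hy : y * (pp a b z * z + 2 * pp a b z * x) = - ((2 * y₀ * z + y₀ * x) * pp a b x)) :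
    x ^ 2 * (a * x - 2 * b) / qq c d x = z ^ 2 * (a * z - 2 * b) / qq c d z ∧
      y * nn a b x / qq c d x ^ 2 = y₀ * nn a b z / qq c d z ^ 2 := by
  have f1 := fib2 a b c d z x h
  rw [hs, mul_zero] at f1
  have f2 : x ^ 2 * (a * x - 2 * b) * qq c d z = z ^ 2 * (a * z - 2 * b) * qq c d x := by
    rcases mul_eq_zero.1 f1 with h3 | h3
    · exact absurd h3 (by norm_num)
    · exact sub_eq_zero.1 h3
  have f3 := sign2 a b z x
  rw [hs, mul_zero] at f3
  have f5 : qq c d z * (x + 2 * z) ^ 2 * pp a b x = pp a b z * (2 * x + z) ^ 2 * qq c d x :=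
    five' h (by rw [hs, mul_zero])
  refine ⟨?_, ?_⟩
  · rw [div_eq_div_iff hqx hqz]
    exact f2
  · rw [div_eq_div_iff (pow_ne_zero 2 hqx) (pow_ne_zero 2 hqz)]
    apply mul_left_cancel₀ (mul_ne_zero (mul_ne_zero hpz (pow_ne_zero 2 hx)) hr)
    linear_combination (nn a b x * qq c d z ^ 2 * (2 * x + z) * (z ^ 2 * (a * z - 2 * b))) * hy -
      (y₀ * (x + 2 * z) * pp a b x * qq c d z ^ 2) * f3 +
      (y₀ * nn a b z * qq c d z * (x ^ 2 * (a * x - 2 * b))) * f5 +
      (y₀ * nn a b z * pp a b z * (2 * x + z) ^ 2 * qq c d x) * f2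

end

end Vale.Agent.P297.H878
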