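import Vale.Agent.P297.H878.Main

/-!
Pencils of curves of genus two with (3,3)-split Jacobian: zero-cycles.
-/

set_option linter.style.haveILetI false
set_option linter.unusedSectionVars false

open CategoryTheory AlgebraicGeometry IntermediateField Polynomial

namespace Vale.Agent.P297.H878

open Vale.Agent.P297 Vale.Agent.P297.H839 Vale.Agent.P297.H516

/-- Let `K = ℂ(l, x, y)` with `t y² = p(x) q(x)`, `p = x³ + 3 a x + 2 b`, `q = 2 d x³ + 3 c x² + 1`,
`12 a c + 16 b d = 1`, where `t`, `a`, `b`, `c`, `d` are rational functions of `l` with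
`a³ + b²`, `c³ + d²` and `t` nonzero. If the function fields of the two elliptic surfaces are
purely transcendental, then three times the difference of two closed points is rationally
equivalent to zero. -/
theorem t_one {K : Type} [Field K] [Algebra ℂ K] (l x y : K)
    (hind : AlgebraicIndependent ℂ ![l, x])
    (t a b c d : K) (ht : t ∈ IntermediateField.adjoin ℂ {l})
    (ha : a ∈ IntermediateField.adjoin ℂ {l}) (hb : b ∈ IntermediateField.adjoin ℂ {l})
    (hc : c ∈ IntermediateField.adjoin ℂ {l}) (hd : d ∈ IntermediateField.adjoin ℂ {l})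
    (ht0 : t ≠ 0) (h : 12 * a * c + 16 * b * d = 1) (hD₁ : a ^ 3 + b ^ 2 ≠ 0)
    (hD₂ : c ^ 3 + d ^ 2 ≠ 0) (hy : t * y ^ 2 = pp a b x * qq c d x)
    (htop : IntermediateField.adjoin ℂ {l, x, y} = ⊤)
    (h1 : IsRational (IntermediateField.adjoin ℂ
      {l, (c - 2 * d * x) / pp a b x, y * mm c d x / pp a b x ^ 2}))
    (h2 : IsRational (IntermediateField.adjoin ℂ
      {l, x ^ 2 * (a * x - 2 * b) / qq c d x, y * nn a b x / qq c d x ^ 2}))
    {S : Scheme.{0}} [IsIntegral S] (f : S ⟶ Spec (.of ℂ)) [IsProper f]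
    (hS : IsFunctionFieldOf f K) (P Q : ClosedPt S) :
    (3 : ℤ) • (Finsupp.single P (1 : ℤ) - Finsupp.single Q 1) ∈ Rat f := by
  obtain ⟨U, hU, hne, hi⟩ := exists_chart f hS
  letI := chartAlg f hU
  haveI := chart_finiteType f hU
  obtain ⟨i, hi, hfrac⟩ := hi
  let N := AlgebraicClosure K
  let φ₀ : K →ₐ[ℂ] N := IsScalarTower.toAlgHom ℂ K N
  have hm : Function.Injective φ₀ := (algebraMap K N).injective
  refine global_of_good f hU 3 (Rat f) le_rfl (φ₀.comp i) (hm.comp hi) ?_ ?_ P Q
  · intro y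
    refine exists_poly_of_algebraic i.toRingHom hi hfrac φ₀.toRingHom y ?_
    obtain ⟨p, hp0, hp⟩ := Algebra.IsAlgebraic.isAlgebraic (R := K) y
    exact ⟨p, hp0, hp⟩
  · by_cases hyK : y ∈ IntermediateField.adjoin ℂ (Set.range ![l, x])
    · have h3 := fibre_good (f := f) (j := hU.fromSpec) (hj := chart_hj f hU)
        (IntermediateField.adjoin ℂ (Set.range ![l, x])) ⟨2, _, hind, rfl⟩ y (by
          rw [eq_top_iff, ← htop, IntermediateField.adjoin_le_iff]
          rintro k (rfl | rfl | rfl)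
          · exact (le_sup_left : _ ≤ IntermediateField.adjoin ℂ (Set.range ![k, x]) ⊔ _)
              (IntermediateField.subset_adjoin _ _ ⟨0, rfl⟩)
          · exact (le_sup_left : _ ≤ IntermediateField.adjoin ℂ (Set.range ![l, k]) ⊔ _)
              (IntermediateField.subset_adjoin _ _ ⟨1, rfl⟩)
          · exact (le_sup_right : IntermediateField.adjoin ℂ {k} ≤ _)
              (IntermediateField.mem_adjoin_simple_self ℂ _)) 1 (X - Polynomial.C ⟨y, hyK⟩)
        (monic_X_sub_C _).ne_zero (natDegree_X_sub_C _).le (by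
          simp only [map_sub, aeval_X, aeval_C]
          exact sub_self _) (fun _ : Fin 1 => φ₀) (fun _ _ _ _ => rfl)
        (Function.injective_of_subsingleton _) i
      rw [Fin.sum_univ_one] at h3
      have h4 := AddSubgroup.zsmul_mem _ h3 3
      rw [Finsupp.smul_single, smul_eq_mul, mul_one] at h4
      exact h4
    · exact split_good φ₀ l x y hind ⟨t, ht⟩ ⟨a, ha⟩ ⟨b, hb⟩ ⟨c, hc⟩ ⟨d, hd⟩
        (fun h3 => ht0 (congrArg Subtype.val h3)) h hD₁ hD₂ hy hyK htop h1 h2 i

end Vale.Agent.P297.H878
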