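import Vale.Agent.P297.MathlibUsed
import Mathlib.Tactic.LinearCombination
import Mathlib.Tactic.FieldSimp

/-!
The identities for curves of genus two with (3,3)-split Jacobian.
-/

namespace Vale.Agent.P297.H878

section Ring

variable {N : Type} [CommRing N]

/-- `p(x) = x³ + 3 a x + 2 b`. -/
def pp (a b x : N) : N := x ^ 3 + 3 * a * x + 2 * b

/-- `q(x) = 2 d x³ + 3 c x² + 1`. -/
def qq (c d x : N) : N := 2 * d * x ^ 3 + 3 * c * x ^ 2 + 1

/-- the numerator of `v₁`. -/
def mm (c d x : N) : N := 16 * d * x ^ 3 - 12 * c * x ^ 2 - 1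

/-- the numerator of `v₂`. -/
def nn (a b x : N) : N := x ^ 3 + 12 * a * x - 16 * b

/-- the two other points of the fibre of the first map -/
def s1 (c d z x : N) : N :=
  4 * (c - 2 * d * z) * x ^ 2 + 4 * (c - 2 * d * z) * z * x + 4 * c * z ^ 2 + 1

/-- the two other points of the fibre of the second map -/
def s2 (a b z x : N) : N :=
  (z ^ 2 + 4 * a) * x ^ 2 + 4 * (a * z - 2 * b) * x + 4 * (a * z - 2 * b) * z

theorem five (a b c d z x : N) (h : 12 * a * c + 16 * b * d = 1) :
    4 * (qq c d z * (x + 2 * z) ^ 2 * pp a b x - pp a b z * (2 * x + z) ^ 2 * qq c d x) =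
      3 * (x - z) * s1 c d z x * s2 a b z x := by
  unfold qq pp s1 s2
  linear_combination (-3 * (x - z) * (z ^ 2 * x ^ 2 + 4 * a * (x ^ 2 + x * z + z ^ 2) -
    8 * b * (x + z)) + 4 * (x + 2 * z) ^ 2 * (x ^ 3 + 3 * a * x + 2 * b) -
    4 * (2 * x + z) ^ 2 * (z ^ 3 + 3 * a * z + 2 * b) -
    (8 * x ^ 5 + 32 * z * x ^ 4 + 26 * z ^ 2 * x ^ 3 - 26 * z ^ 3 * x ^ 2 - 32 * z ^ 4 * x -
    8 * z ^ 5)) * h

theorem fib1 (a b c d z x : N) (h : 12 * a * c + 16 * b * d = 1) :
    4 * ((c - 2 * d * x) * pp a b z - (c - 2 * d * z) * pp a b x) =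
      - (x - z) * s1 c d z x := by
  unfold pp s1
  linear_combination (-(x - z)) * h

theorem fib2 (a b c d z x : N) (h : 12 * a * c + 16 * b * d = 1) :
    4 * (x ^ 2 * (a * x - 2 * b) * qq c d z - z ^ 2 * (a * z - 2 * b) * qq c d x) =
      (x - z) * s2 a b z x := by
  unfold qq s2
  linear_combination (x - z) * (x ^ 2 * z ^ 2) * h

theorem sign1 (c d z x : N) :
    (x + 2 * z) * mm c d x * (c - 2 * d * z) + (2 * x + z) * mm c d z * (c - 2 * d * x) =
      (4 * d * x ^ 2 + (4 * d * z - 3 * c) * (x + z)) * s1 c d z x := by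
  unfold mm s1
  ring

theorem sign2 (a b z x : N) :
    (x + 2 * z) * nn a b z * (x ^ 2 * (a * x - 2 * b)) +
      (2 * x + z) * nn a b x * (z ^ 2 * (a * z - 2 * b)) =
      ((3 * a * z - 4 * b) * (x ^ 2 + z * x) - 4 * b * z ^ 2) * s2 a b z x := by
  unfold nn s2
  ring

theorem disc1 (c d z x x' : N) (h : s1 c d z x = 0) (h' : x' = -z - x) :
    4 * (c - 2 * d * z) * (x - x') ^ 2 = - 4 * qq c d z := by
  subst h'
  unfold qq
  unfold s1 at h
  linear_combination 4 * h

theorem s1_self (c d z : N) : s1 c d z z = - mm c d z := by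
  unfold s1 mm
  ring

theorem s2_self (a b z : N) : s2 a b z z = z * nn a b z := by
  unfold s2 nn
  ring

theorem s1_half (c d z x : N) (h : 2 * x + z = 0) : s1 c d z x = qq c d z := by
  unfold s1 qq
  have h1 : z = - (2 * x) := by linear_combination h
  subst h1
  ring

theorem s2_half (a b z x : N) (h : 2 * x + z = 0) : 4 * s2 a b z x = z * nn a b z := by
  unfold s2 nn
  have h1 : z = - (2 * x) := by linear_combination h
  subst h1
  ring

end Ring

end Vale.Agent.P297.H878
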