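import Vale.Agent.P297.H878.Rthree
import Vale.Agent.P297.H878.Val

/-!
Pencils of curves of genus two with (3,3)-split Jacobian.
-/

set_option linter.style.haveILetI false
set_option linter.unusedSectionVars false

open CategoryTheory AlgebraicGeometry IntermediateField Polynomial

namespace Vale.Agent.P297.H878

open Vale.Agent.P297 Vale.Agent.P297.H839 Vale.Agent.P297.H516

section

variable {S : Scheme.{0}} {f : S ⟶ Spec (.of ℂ)} [IsProper f] {C : Type} [CommRing C] [Algebra ℂ C]
  [Algebra.FiniteType ℂ C] {j : Spec (.of C) ⟶ S}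
  {hj : j ≫ f = Spec.map (CommRingCat.ofHom (algebraMap ℂ C))}

/-- The main relation. -/
theorem split_good {K N : Type} [Field K] [Algebra ℂ K] [Field N] [Algebra ℂ N] [IsAlgClosed N]
    (φ₀ : K →ₐ[ℂ] N) (l x y : K) (hind : AlgebraicIndependent ℂ ![l, x])
    (t a b c d : IntermediateField.adjoin ℂ {l}) (ht0 : t ≠ 0)
    (h : 12 * (a : K) * c + 16 * b * d = 1) (hD₁ : (a : K) ^ 3 + b ^ 2 ≠ 0)
    (hD₂ : (c : K) ^ 3 + d ^ 2 ≠ 0)
    (hy : (t : K) * y ^ 2 = pp (a : K) b x * qq (c : K) d x)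
    (hyK : y ∉ IntermediateField.adjoin ℂ (Set.range ![l, x]))
    (htop : IntermediateField.adjoin ℂ {l, x, y} = ⊤)
    (h1 : IsRational (IntermediateField.adjoin ℂ
      {l, ((c : K) - 2 * d * x) / pp (a : K) b x, y * mm (c : K) d x / pp (a : K) b x ^ 2}))
    (h2 : IsRational (IntermediateField.adjoin ℂ
      {l, x ^ 2 * ((a : K) * x - 2 * b) / qq (c : K) d x,
        y * nn (a : K) b x / qq (c : K) d x ^ 2}))
    (ι : C →ₐ[ℂ] K) : Finsupp.single (φ₀.comp ι) (3 : ℤ) ∈ Good f j hj (Rat f) N := by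
  classical
  haveI : CharZero N := charZero_of_injective_algebraMap (algebraMap ℂ N).injective
  haveI : CharZero K := charZero_of_injective_algebraMap (algebraMap ℂ K).injective
  have hinj : Function.Injective φ₀ := φ₀.toRingHom.injective
  -- the closure of the field of constants
  have hind' : AlgebraicIndependent ℂ ![φ₀ l, φ₀ x] := by
    have h3 := hind.map' (f := φ₀) hinj
    have h4 : (φ₀ ∘ ![l, x]) = ![φ₀ l, φ₀ x] := by
      ext i
      fin_cases i <;> rfl
    rw [h4] at h3
    exact h3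
  obtain ⟨L, hcl, hlL, hL⟩ := exists_closure (hind'.transcendental 0)
  have hmemL : ∀ e : IntermediateField.adjoin ℂ {l}, φ₀ e ∈ L := by
    intro e
    have h3 : (IntermediateField.adjoin ℂ {l}).map φ₀ ≤ L := by
      rw [IntermediateField.adjoin_map, Set.image_singleton]
      exact hlL
    exact h3 ⟨e, e.2, rfl⟩
  have hz : φ₀ x ∉ L := (hL _).1 hind'
  -- the equations in `N`
  obtain ⟨z, hzdef⟩ : ∃ z, z = φ₀ x := ⟨_, rfl⟩
  obtain ⟨y₀, hy₀def⟩ : ∃ y₀, y₀ = φ₀ y := ⟨_, rfl⟩
  obtain ⟨a', ha'⟩ : ∃ a' : N, a' = φ₀ a := ⟨_, rfl⟩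
  obtain ⟨b', hb'⟩ : ∃ b' : N, b' = φ₀ b := ⟨_, rfl⟩
  obtain ⟨c', hc'⟩ : ∃ c' : N, c' = φ₀ c := ⟨_, rfl⟩
  obtain ⟨d', hd'⟩ : ∃ d' : N, d' = φ₀ d := ⟨_, rfl⟩
  obtain ⟨t', ht'⟩ : ∃ t' : N, t' = φ₀ t := ⟨_, rfl⟩
  rw [← hzdef] at hz
  have haL : a' ∈ L := by rw [ha']; exact hmemL a
  have hbL : b' ∈ L := by rw [hb']; exact hmemL b
  have hcL : c' ∈ L := by rw [hc']; exact hmemL c
  have hdL : d' ∈ L := by rw [hd']; exact hmemL d
  have h' : 12 * a' * c' + 16 * b' * d' = 1 := by
    have h3 := congrArg φ₀ h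
    simp only [map_add, map_mul, map_ofNat, map_one] at h3
    rw [ha', hb', hc', hd']
    exact h3
  have hD₁' : a' ^ 3 + b' ^ 2 ≠ 0 := by
    intro h3
    apply hD₁
    apply hinj
    rw [map_zero, map_add, map_pow, map_pow, ← ha', ← hb']
    exact h3
  have hD₂' : c' ^ 3 + d' ^ 2 ≠ 0 := by
    intro h3
    apply hD₂
    apply hinj
    rw [map_zero, map_add, map_pow, map_pow, ← hc', ← hd']
    exact h3
  have hy' : t' * y₀ ^ 2 = pp a' b' z * qq c' d' z := by
    have h3 := congrArg φ₀ hy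
    rw [map_mul, map_pow, map_mul] at h3
    have h4 : φ₀ (pp (a : K) b x) = pp a' b' z := by
      rw [ha', hb', hzdef]
      exact map_pp φ₀.toRingHom _ _ _
    have h5 : φ₀ (qq (c : K) d x) = qq c' d' z := by
      rw [hc', hd', hzdef]
      exact map_qq φ₀.toRingHom _ _ _
    rw [h4, h5, ← ht', ← hy₀def] at h3
    exact h3
  have ht0' : t' ≠ 0 := by
    rw [ht']
    intro h3
    apply ht0
    apply Subtype.ext
    apply hinj
    rw [h3]
    exact (map_zero φ₀).symm
  have hz0 := z_ne L hz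
  have hs0 := s_ne L hcl hcL hdL h' hz
  have hr0 := r_ne L hcl haL hbL h' hz
  have hk0 := k_ne L hcl haL hz
  have hp0 := p_ne L hcl haL hbL hz
  have hq0 := q_ne L hcl hcL hdL hz
  have hm0 := m_ne L hcl hcL hdL hz
  have hn0 := n_ne L hcl haL hbL hz
  have hy00 : y₀ ≠ 0 := by
    rintro rfl
    rw [zero_pow two_ne_zero, mul_zero] at hy'
    exact mul_ne_zero hp0 hq0 hy'.symm
  -- the quadratic extension
  have hl0 : l ∈ IntermediateField.adjoin ℂ (Set.range ![l, x]) :=
    IntermediateField.subset_adjoin _ _ ⟨0, rfl⟩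
  have hx0 : x ∈ IntermediateField.adjoin ℂ (Set.range ![l, x]) :=
    IntermediateField.subset_adjoin _ _ ⟨1, rfl⟩
  have hle : IntermediateField.adjoin ℂ {l} ≤ IntermediateField.adjoin ℂ (Set.range ![l, x]) := by
    rw [IntermediateField.adjoin_le_iff]
    rintro _ rfl
    exact hl0
  have hppmem : ∀ F : IntermediateField ℂ K, l ∈ F → x ∈ F → pp (a : K) b x ∈ F ∧
      qq (c : K) d x ∈ F ∧ mm (c : K) d x ∈ F ∧ nn (a : K) b x ∈ F := by
    intro F hlF hxF
    have hle' : IntermediateField.adjoin ℂ {l} ≤ F := by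
      rw [IntermediateField.adjoin_le_iff]
      rintro _ rfl
      exact hlF
    have h8 : ∀ n : ℕ, ∀ [n.AtLeastTwo], (OfNat.ofNat n : K) ∈ F := fun n _ => ofNat_mem F n
    have haF := hle' a.2
    have hbF := hle' b.2
    have hcF := hle' c.2
    have hdF := hle' d.2
    unfold pp qq mm nn
    refine ⟨?_, ?_, ?_, ?_⟩ <;>
      repeat' first
        | exact haF | exact hbF | exact hcF | exact hdF | exact hxF | exact F.one_mem
        | apply add_mem | apply sub_mem | apply mul_mem | apply pow_mem | exact h8 _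
  have htK : (t : K) ≠ 0 := fun h3 => ht0 (Subtype.ext h3)
  have hy2 : y ^ 2 ∈ IntermediateField.adjoin ℂ (Set.range ![l, x]) := by
    have h3 : y ^ 2 = pp (a : K) b x * qq (c : K) d x / t := by
      rw [eq_div_iff htK, ← hy, mul_comm]
    rw [h3]
    obtain ⟨m1, m2, -, -⟩ := hppmem _ hl0 hx0
    exact div_mem (mul_mem m1 m2) (hle t.2)
  have hspan : ∀ k : K, ∃ α ∈ IntermediateField.adjoin ℂ (Set.range ![l, x]),
      ∃ β ∈ IntermediateField.adjoin ℂ (Set.range ![l, x]), k = α + β * y :=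
    exists_quad _ y hy2 {l, x, y} (by
      rintro k (rfl | rfl | rfl)
      · exact Or.inl hl0
      · exact Or.inl hx0
      · exact Or.inr rfl) htop
  -- the five points
  obtain ⟨p, hpz, hpinj, hpL, hph, r1, r2, r3, r4, -, -, -, -⟩ :=
    exists_points L hcl haL hbL hcL hdL h' hz hD₁' hD₂'
  have hzero : ∀ i, (p i - z) * s1 c' d' z (p i) * s2 a' b' z (p i) = 0 := by
    intro i
    fin_cases i
    · change (p 0 - z) * _ * _ = 0
      rw [hpz, sub_self, zero_mul, zero_mul]
    · change (p 1 - z) * s1 c' d' z (p 1) * _ = 0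
      rw [r1, mul_zero, zero_mul]
    · change (p 2 - z) * s1 c' d' z (p 2) * _ = 0
      rw [r2, mul_zero, zero_mul]
    · change _ * s2 a' b' z (p 3) = 0
      rw [r3, mul_zero]
    · change _ * s2 a' b' z (p 4) = 0
      rw [r4, mul_zero]
  have hlc : t' * y₀ ^ 2 - 2 * d' * (2 * pp a' b' z) ^ 2 ≠ 0 := by
    have h3 : t' * y₀ ^ 2 - 2 * d' * (2 * pp a' b' z) ^ 2 =
        3 * pp a' b' z * ((c' - 2 * d' * z) * (z ^ 2 + 4 * a')) := by
      rw [hy']
      unfold pp qq
      linear_combination (-(z ^ 3 + 3 * a' * z + 2 * b')) * h'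
    rw [h3]
    exact mul_ne_zero (mul_ne_zero (by norm_num) hp0) (mul_ne_zero hs0 hk0)
  have hB : ∀ i, pp a' b' z * z + 2 * pp a' b' z * p i ≠ 0 := by
    intro i
    have h3 : pp a' b' z * z + 2 * pp a' b' z * p i = pp a' b' z * (2 * p i + z) := by ring
    rw [h3]
    exact mul_ne_zero hp0 (hph i)
  obtain ⟨φ, hφl, hφx, hφy, hR3⟩ := five_good (f := f) (j := j) (hj := hj) (C := C) φ₀ l x y hind
    t a b c d ht0 hy hy2 hyK hspan (2 * y₀ * z) y₀ (pp a' b' z * z) (2 * pp a' b' z)
    (by rw [← ht', ← hd']; exact hlc) p hpinj (fun i => (hL _).2 (hpL i))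
    (fun i => by
      rw [← ht', ← ha', ← hb', ← hc', ← hd']
      exact sq_value hy' (five' h' (hzero i))) hB
  simp only [← ha', ← hb'] at hφy
  -- agreement on `ℂ(l)`
  have hφe : ∀ i (e : IntermediateField.adjoin ℂ {l}), φ i e = φ₀ e := hφl
  have hφl' : ∀ i, φ i l = φ₀ l := fun i =>
    hφl i ⟨l, IntermediateField.mem_adjoin_simple_self ℂ l⟩
  have hpx0 : ∀ i, pp a' b' (p i) ≠ 0 := fun i => p_ne L hcl haL hbL (hpL i)
  have hqx0 : ∀ i, qq c' d' (p i) ≠ 0 := fun i => q_ne L hcl hcL hdL (hpL i)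
  have hφpp : ∀ i, φ i (pp (a : K) b x) = pp a' b' (p i) := by
    intro i
    refine (map_pp (φ i).toRingHom _ _ _).trans ?_
    change pp (φ i a) (φ i b) (φ i x) = _
    rw [hφe, hφe, hφx, ha', hb']
  have hφqq : ∀ i, φ i (qq (c : K) d x) = qq c' d' (p i) := by
    intro i
    refine (map_qq (φ i).toRingHom _ _ _).trans ?_
    change qq (φ i c) (φ i d) (φ i x) = _
    rw [hφe, hφe, hφx, hc', hd']
  have hφmm : ∀ i, φ i (mm (c : K) d x) = mm c' d' (p i) := by
    intro i
    refine (map_mm (φ i).toRingHom _ _ _).trans ?_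
    change mm (φ i c) (φ i d) (φ i x) = _
    rw [hφe, hφe, hφx, hc', hd']
  have hφnn : ∀ i, φ i (nn (a : K) b x) = nn a' b' (p i) := by
    intro i
    refine (map_nn (φ i).toRingHom _ _ _).trans ?_
    change nn (φ i a) (φ i b) (φ i x) = _
    rw [hφe, hφe, hφx, ha', hb']
  have h0pp : φ₀ (pp (a : K) b x) = pp a' b' z := by
    rw [ha', hb', hzdef]
    exact map_pp φ₀.toRingHom _ _ _
  have h0qq : φ₀ (qq (c : K) d x) = qq c' d' z := by
    rw [hc', hd', hzdef]
    exact map_qq φ₀.toRingHom _ _ _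
  have h0mm : φ₀ (mm (c : K) d x) = mm c' d' z := by
    rw [hc', hd', hzdef]
    exact map_mm φ₀.toRingHom _ _ _
  have h0nn : φ₀ (nn (a : K) b x) = nn a' b' z := by
    rw [ha', hb', hzdef]
    exact map_nn φ₀.toRingHom _ _ _
  have hpK : pp (a : K) b x ≠ 0 := by
    intro h3
    rw [h3, map_zero] at h0pp
    exact hp0 h0pp.symm
  have hqK : qq (c : K) d x ≠ 0 := by
    intro h3
    rw [h3, map_zero] at h0qq
    exact hq0 h0qq.symm
  have hmK : mm (c : K) d x ≠ 0 := by
    intro h3
    rw [h3, map_zero] at h0mm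
    exact hm0 h0mm.symm
  have hnK : nn (a : K) b x ≠ 0 := by
    intro h3
    rw [h3, map_zero] at h0nn
    exact hn0 h0nn.symm
  -- (R0)
  have hR0 : ∑ i : Fin 2, Finsupp.single ((![φ₀, φ 0] i).comp ι) (1 : ℤ) ∈
      Good f j hj (Rat f) N := by
    refine fibre_good (IntermediateField.adjoin ℂ (Set.range ![l, x])) ⟨2, _, hind, rfl⟩ y ?_ 2
      (X ^ 2 - Polynomial.C ⟨y ^ 2, hy2⟩) ?_ ?_ ?_ _ ?_ ?_ ι
    · rw [eq_top_iff, ← htop, IntermediateField.adjoin_le_iff]
      rintro k (rfl | rfl | rfl)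
      · exact (le_sup_left : _ ≤ IntermediateField.adjoin ℂ (Set.range ![k, x]) ⊔ _) hl0
      · exact (le_sup_left : _ ≤ IntermediateField.adjoin ℂ (Set.range ![l, k]) ⊔ _) hx0
      · exact (le_sup_right : IntermediateField.adjoin ℂ {k} ≤ _)
          (IntermediateField.mem_adjoin_simple_self ℂ _)
    · exact (monic_X_pow_sub_C _ two_ne_zero).ne_zero
    · exact natDegree_X_pow_sub_C.le
    · simp only [map_sub, map_pow, aeval_X, aeval_C]
      exact sub_self _
    · have h3 : ∀ i : Fin 2, ∀ k ∈ IntermediateField.adjoin ℂ (Set.range ![l, x]),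
          ![φ₀, φ 0] i k = φ₀ k := by
        intro i
        apply agree_on_adjoin
        rintro _ ⟨m, rfl⟩
        fin_cases i
        · rfl
        · fin_cases m
          · exact hφl' 0
          · change φ 0 x = φ₀ x
            rw [hφx, hpz, hzdef]
      intro i i' k hk
      rw [h3 i k hk, h3 i' k hk]
    · have h3 : φ 0 y = - y₀ := by
        have h4 := hφy 0
        rw [hpz] at h4
        apply mul_right_cancel₀ (mul_ne_zero (mul_ne_zero (show (3 : N) ≠ 0 by norm_num) hp0) hz0)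
        linear_combination h4
      have h5 : φ₀ y ≠ φ 0 y := by
        rw [h3, ← hy₀def]
        intro h6
        apply hy00
        have h7 : (2 : N) * y₀ = 0 := by linear_combination h6
        exact (mul_eq_zero.1 h7).resolve_left two_ne_zero
      intro i i' hi
      fin_cases i <;> fin_cases i' <;> first
        | rfl | exact absurd hi h5 | exact absurd hi h5.symm
  -- (R1)
  have hcdx : (c : K) - 2 * d * x ≠ 0 := by
    intro h3
    apply hs0
    have h4 := congrArg φ₀ h3
    rw [map_zero, map_sub, map_mul, map_mul, map_ofNat, ← hc', ← hd', ← hzdef] at h4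
    exact h4
  have hR1 : ∑ i : Fin 3, Finsupp.single ((![φ₀, φ 1, φ 2] i).comp ι) (1 : ℤ) ∈
      Good f j hj (Rat f) N := by
    generalize hF : IntermediateField.adjoin ℂ
      {l, ((c : K) - 2 * d * x) / pp (a : K) b x, y * mm (c : K) d x / pp (a : K) b x ^ 2} = F at h1
    have hlF : l ∈ F := by rw [← hF]; exact IntermediateField.subset_adjoin _ _ (by simp)
    have huF : ((c : K) - 2 * d * x) / pp (a : K) b x ∈ F := by
      rw [← hF]; exact IntermediateField.subset_adjoin _ _ (by simp)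
    have hvF : y * mm (c : K) d x / pp (a : K) b x ^ 2 ∈ F := by
      rw [← hF]; exact IntermediateField.subset_adjoin _ _ (by simp)
    have hleF : IntermediateField.adjoin ℂ {l} ≤ F := by
      rw [IntermediateField.adjoin_le_iff]
      rintro _ rfl
      exact hlF
    let uF : F := ⟨_, huF⟩
    let aF : F := ⟨_, hleF a.2⟩
    let bF : F := ⟨_, hleF b.2⟩
    let cF : F := ⟨_, hleF c.2⟩
    let dF : F := ⟨_, hleF d.2⟩
    have huF0 : uF ≠ 0 := by
      intro h3
      have h4 := congrArg Subtype.val h3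
      exact div_ne_zero hcdx hpK h4
    refine fibre_good F h1 x ?_ 3 (Polynomial.C uF * X ^ 3 + Polynomial.C (3 * uF * aF + 2 * dF) * X
      + Polynomial.C (2 * uF * bF - cF)) ?_ ?_ ?_ _ ?_ ?_ ι
    · rw [eq_top_iff, ← htop, IntermediateField.adjoin_le_iff]
      have hl1 : l ∈ F ⊔ IntermediateField.adjoin ℂ {x} := (le_sup_left : F ≤ _) hlF
      have hx1 : x ∈ F ⊔ IntermediateField.adjoin ℂ {x} :=
        (le_sup_right : IntermediateField.adjoin ℂ {x} ≤ _)
          (IntermediateField.mem_adjoin_simple_self ℂ _)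
      obtain ⟨m1, m2, m3, m4⟩ := hppmem _ hl1 hx1
      rintro k (rfl | rfl | rfl)
      · exact hl1
      · exact hx1
      · have h3 : k = k * mm (c : K) d x / pp (a : K) b x ^ 2 * pp (a : K) b x ^ 2 /
            mm (c : K) d x := by
          field_simp
        rw [h3]
        exact div_mem (mul_mem ((le_sup_left : F ≤ _) hvF) (pow_mem m1 2)) m3
    · intro h3
      have h4 := congrArg (fun w : F[X] => w.coeff 3) h3
      simp at h4
      exact huF0 h4
    · compute_degree
    · simp only [map_add, map_mul, map_pow, aeval_X, aeval_C]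
      change ((c : K) - 2 * d * x) / pp (a : K) b x * x ^ 3 +
        (3 * (((c : K) - 2 * d * x) / pp (a : K) b x) * a + 2 * d) * x +
        (2 * (((c : K) - 2 * d * x) / pp (a : K) b x) * b - c) = 0
      have h3 : ((c : K) - 2 * d * x) / pp (a : K) b x * pp (a : K) b x = (c : K) - 2 * d * x :=
        div_mul_cancel₀ _ hpK
      generalize ((c : K) - 2 * d * x) / pp (a : K) b x = u at h3
      unfold pp at h3
      linear_combination h3
    · have h3 : ∀ i : Fin 3, ∀ k ∈ F, ![φ₀, φ 1, φ 2] i k = φ₀ k := by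
        intro i
        rw [← hF]
        have key : ∀ i : Fin 5, s1 c' d' z (p i) = 0 → ∀ k ∈ IntermediateField.adjoin ℂ
            {l, ((c : K) - 2 * d * x) / pp (a : K) b x,
              y * mm (c : K) d x / pp (a : K) b x ^ 2}, φ i k = φ₀ k := by
          intro i hi
          obtain ⟨v1, v2⟩ := v1_value (y₀ := y₀) (y := φ i y) hp0 (hpx0 i) hs0 (hph i) hi h' (hφy i)
          apply agree_on_adjoin
          rintro k (rfl | rfl | rfl)
          · exact hφl' i
          · rw [map_div₀, map_div₀, hφpp, h0pp, map_sub, map_mul, map_mul, map_ofNat, map_sub,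
              map_mul, map_mul, map_ofNat, hφe, hφe, hφx, ← hc', ← hd', ← hzdef]
            exact v1
          · rw [map_div₀, map_div₀, map_mul, map_mul, map_pow, map_pow, hφpp, h0pp, hφmm, h0mm,
              ← hy₀def]
            exact v2
        fin_cases i
        · intro k _
          rfl
        · exact key 1 r1
        · exact key 2 r2
      intro i i' k hk
      rw [h3 i k hk, h3 i' k hk]
    · have h3 : ∀ i : Fin 3, ![φ₀, φ 1, φ 2] i x = p (Fin.castLE (by norm_num) i) := by
        intro i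
        fin_cases i
        · change φ₀ x = p 0
          rw [hpz, hzdef]
        · exact hφx 1
        · exact hφx 2
      intro i i' hi
      have h4 : ![φ₀, φ 1, φ 2] i x = ![φ₀, φ 1, φ 2] i' x := hi
      rw [h3, h3] at h4
      exact Fin.castLE_injective _ (hpinj h4)
  -- (R2)
  have hxK : x ≠ 0 := by
    intro h3
    apply hz0
    rw [hzdef, h3, map_zero]
  have habx : (a : K) * x - 2 * b ≠ 0 := by
    intro h3
    apply hr0
    have h4 := congrArg φ₀ h3
    rw [map_zero, map_sub, map_mul, map_mul, map_ofNat, ← ha', ← hb', ← hzdef] at h4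
    exact h4
  have hR2 : ∑ i : Fin 3, Finsupp.single ((![φ₀, φ 3, φ 4] i).comp ι) (1 : ℤ) ∈
      Good f j hj (Rat f) N := by
    generalize hF : IntermediateField.adjoin ℂ
      {l, x ^ 2 * ((a : K) * x - 2 * b) / qq (c : K) d x,
        y * nn (a : K) b x / qq (c : K) d x ^ 2} = F at h2
    have hlF : l ∈ F := by rw [← hF]; exact IntermediateField.subset_adjoin _ _ (by simp)
    have huF : x ^ 2 * ((a : K) * x - 2 * b) / qq (c : K) d x ∈ F := by
      rw [← hF]; exact IntermediateField.subset_adjoin _ _ (by simp)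
    have hvF : y * nn (a : K) b x / qq (c : K) d x ^ 2 ∈ F := by
      rw [← hF]; exact IntermediateField.subset_adjoin _ _ (by simp)
    have hleF : IntermediateField.adjoin ℂ {l} ≤ F := by
      rw [IntermediateField.adjoin_le_iff]
      rintro _ rfl
      exact hlF
    let uF : F := ⟨_, huF⟩
    let aF : F := ⟨_, hleF a.2⟩
    let bF : F := ⟨_, hleF b.2⟩
    let cF : F := ⟨_, hleF c.2⟩
    let dF : F := ⟨_, hleF d.2⟩
    have huF0 : uF ≠ 0 := by
      intro h3
      have h4 := congrArg Subtype.val h3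
      exact div_ne_zero (mul_ne_zero (pow_ne_zero 2 hxK) habx) hqK h4
    refine fibre_good F h2 x ?_ 3 (Polynomial.C (2 * uF * dF - aF) * X ^ 3 +
      Polynomial.C (3 * uF * cF + 2 * bF) * X ^ 2 + Polynomial.C uF) ?_ ?_ ?_ _ ?_ ?_ ι
    · rw [eq_top_iff, ← htop, IntermediateField.adjoin_le_iff]
      have hl1 : l ∈ F ⊔ IntermediateField.adjoin ℂ {x} := (le_sup_left : F ≤ _) hlF
      have hx1 : x ∈ F ⊔ IntermediateField.adjoin ℂ {x} :=
        (le_sup_right : IntermediateField.adjoin ℂ {x} ≤ _)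
          (IntermediateField.mem_adjoin_simple_self ℂ _)
      obtain ⟨m1, m2, m3, m4⟩ := hppmem _ hl1 hx1
      rintro k (rfl | rfl | rfl)
      · exact hl1
      · exact hx1
      · have h3 : k = k * nn (a : K) b x / qq (c : K) d x ^ 2 * qq (c : K) d x ^ 2 /
            nn (a : K) b x := by
          field_simp
        rw [h3]
        exact div_mem (mul_mem ((le_sup_left : F ≤ _) hvF) (pow_mem m2 2)) m4
    · intro h3
      have h4 := congrArg (fun w : F[X] => w.coeff 0) h3
      simp at h4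
      exact huF0 h4
    · compute_degree
    · simp only [map_add, map_mul, map_pow, aeval_X, aeval_C]
      change (2 * (x ^ 2 * ((a : K) * x - 2 * b) / qq (c : K) d x) * d - a) * x ^ 3 +
        (3 * (x ^ 2 * ((a : K) * x - 2 * b) / qq (c : K) d x) * c + 2 * b) * x ^ 2 +
        x ^ 2 * ((a : K) * x - 2 * b) / qq (c : K) d x = 0
      have h3 : x ^ 2 * ((a : K) * x - 2 * b) / qq (c : K) d x * qq (c : K) d x =
          x ^ 2 * ((a : K) * x - 2 * b) :=
        div_mul_cancel₀ _ hqK
      generalize x ^ 2 * ((a : K) * x - 2 * b) / qq (c : K) d x = u at h3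
      unfold qq at h3
      linear_combination h3
    · have h3 : ∀ i : Fin 3, ∀ k ∈ F, ![φ₀, φ 3, φ 4] i k = φ₀ k := by
        intro i
        rw [← hF]
        have key : ∀ i : Fin 5, s2 a' b' z (p i) = 0 → ∀ k ∈ IntermediateField.adjoin ℂ
            {l, x ^ 2 * ((a : K) * x - 2 * b) / qq (c : K) d x,
              y * nn (a : K) b x / qq (c : K) d x ^ 2}, φ i k = φ₀ k := by
          intro i hi
          obtain ⟨v1, v2⟩ := v2_value (y₀ := y₀) (y := φ i y) hp0 hq0 (hqx0 i)
            (mul_ne_zero (pow_ne_zero 2 hz0) hr0) (hph i) hi h' (hφy i)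
          apply agree_on_adjoin
          rintro k (rfl | rfl | rfl)
          · exact hφl' i
          · rw [map_div₀, map_div₀, hφqq, h0qq, map_mul, map_sub, map_mul, map_mul, map_ofNat,
              map_pow, map_mul, map_sub, map_mul, map_mul, map_ofNat, map_pow, hφe, hφe, hφx,
              ← ha', ← hb', ← hzdef]
            exact v1
          · rw [map_div₀, map_div₀, map_mul, map_mul, map_pow, map_pow, hφqq, h0qq, hφnn, h0nn,
              ← hy₀def]
            exact v2
        fin_cases i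
        · intro k _
          rfl
        · exact key 3 r3
        · exact key 4 r4
      intro i i' k hk
      rw [h3 i k hk, h3 i' k hk]
    · have h3 : ∀ i : Fin 3, ![φ₀, φ 3, φ 4] i x = p (![0, 3, 4] i) := by
        intro i
        fin_cases i
        · change φ₀ x = p 0
          rw [hpz, hzdef]
        · exact hφx 3
        · exact hφx 4
      intro i i' hi
      have h4 : ![φ₀, φ 3, φ 4] i x = ![φ₀, φ 3, φ 4] i' x := hi
      rw [h3, h3] at h4
      have h5 := hpinj h4
      fin_cases i <;> fin_cases i' <;> first | rfl | exact absurd h5 (by decide)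
  have hR3' := hR3 ι
  rw [Fin.sum_univ_five] at hR3'
  rw [Fin.sum_univ_two] at hR0
  rw [Fin.sum_univ_three] at hR1 hR2
  have key := AddSubgroup.sub_mem _ (AddSubgroup.add_mem _ (AddSubgroup.add_mem _ hR0 hR1) hR2) hR3'
  have h3 : Finsupp.single ((![φ₀, φ 0] 0).comp ι) (1 : ℤ) +
      Finsupp.single ((![φ₀, φ 0] 1).comp ι) 1 + (Finsupp.single ((![φ₀, φ 1, φ 2] 0).comp ι) 1 +
      Finsupp.single ((![φ₀, φ 1, φ 2] 1).comp ι) 1 +
      Finsupp.single ((![φ₀, φ 1, φ 2] 2).comp ι) 1) +
      (Finsupp.single ((![φ₀, φ 3, φ 4] 0).comp ι) 1 +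
      Finsupp.single ((![φ₀, φ 3, φ 4] 1).comp ι) 1 +
      Finsupp.single ((![φ₀, φ 3, φ 4] 2).comp ι) 1) -
      (Finsupp.single ((φ 0).comp ι) 1 + Finsupp.single ((φ 1).comp ι) 1 +
      Finsupp.single ((φ 2).comp ι) 1 + Finsupp.single ((φ 3).comp ι) 1 +
      Finsupp.single ((φ 4).comp ι) 1) = Finsupp.single (φ₀.comp ι) 3 := by
    have h4 : (Finsupp.single (φ₀.comp ι) (3 : ℤ)) = Finsupp.single (φ₀.comp ι) (1 : ℤ) +
        Finsupp.single (φ₀.comp ι) 1 + Finsupp.single (φ₀.comp ι) 1 := by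
      rw [← Finsupp.single_add, ← Finsupp.single_add]
      rfl
    rw [h4]
    simp only [Matrix.cons_val_zero, Matrix.cons_val_one, Matrix.cons_val]
    abel
  rw [h3] at key
  exact key

end

end Vale.Agent.P297.H878
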