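import Vale.Agent.P297.H878.Alg

/-!
The five points.
-/

set_option linter.style.haveILetI false

open Polynomial IntermediateField

namespace Vale.Agent.P297.H878

section

variable {N : Type} [Field N] [Algebra ℂ N]

theorem coeff_zero (L : IntermediateField ℂ N) (hcl : ∀ x : N, IsAlgebraic L x → x ∈ L) {z : N}
    (hz : z ∉ L) {n : ℕ} (v : Fin n → N) (hv : ∀ i, v i ∈ L) (h : ∑ i, v i * z ^ (i : ℕ) = 0)
    (i : Fin n) : v i = 0 := by
  by_contra hne
  apply hz
  apply hcl
  refine ⟨∑ k : Fin n, Polynomial.monomial (k : ℕ) (⟨v k, hv k⟩ : L), ?_, ?_⟩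
  · intro h0
    have h1 := congrArg (fun w : L[X] => w.coeff (i : ℕ)) h0
    simp only [Polynomial.finsetSum_coeff, Polynomial.coeff_monomial, Polynomial.coeff_zero] at h1
    rw [Finset.sum_eq_single i] at h1
    · rw [if_pos rfl] at h1
      exact hne (congrArg Subtype.val h1)
    · intro k _ hk
      rw [if_neg]
      intro h2
      exact hk (Fin.ext h2)
    · intro h2
      exact absurd (Finset.mem_univ i) h2
  · rw [map_sum, ← h]
    refine Finset.sum_congr rfl fun k _ => ?_
    rw [Polynomial.aeval_monomial]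
    rfl

theorem natCast_mul_mem (L : IntermediateField ℂ N) (n : ℕ) [n.AtLeastTwo] {x : N} (hx : x ∈ L) :
    (OfNat.ofNat n : N) * x ∈ L := mul_mem (ofNat_mem L n) hx

variable (L : IntermediateField ℂ N) (hcl : ∀ x : N, IsAlgebraic L x → x ∈ L) {z a b c d : N}
  (ha : a ∈ L) (hb : b ∈ L) (hc : c ∈ L) (hd : d ∈ L) (h : 12 * a * c + 16 * b * d = 1)


theorem z_ne (hz : z ∉ L) : z ≠ 0 := by
  rintro rfl
  exact hz L.zero_mem

include hcl

include ha hb h in
theorem r_ne (hz : z ∉ L) : a * z - 2 * b ≠ 0 := by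
  intro h0
  have key := coeff_zero L hcl hz ![-2 * b, a] (by
    intro i
    fin_cases i
    · exact mul_mem (neg_mem (ofNat_mem L 2)) hb
    · exact ha) (by
    simp [Fin.sum_univ_succ]
    linear_combination h0)
  have h1 : -2 * b = 0 := key 0
  have h2 : a = 0 := key 1
  rw [h2] at h
  have h3 : (1 : N) = 0 := by linear_combination -h - 8 * d * h1
  exact one_ne_zero h3

include hc hd h in
theorem s_ne (hz : z ∉ L) : c - 2 * d * z ≠ 0 := by
  intro h0
  have key := coeff_zero L hcl hz ![c, -2 * d] (by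
    intro i
    fin_cases i
    · exact hc
    · exact mul_mem (neg_mem (ofNat_mem L 2)) hd) (by
    simp [Fin.sum_univ_succ]
    linear_combination h0)
  have h1 : c = 0 := key 0
  have h2 : -2 * d = 0 := key 1
  rw [h1] at h
  have h3 : (1 : N) = 0 := by linear_combination -h - 8 * b * h2
  exact one_ne_zero h3

include ha in
theorem k_ne (hz : z ∉ L) : z ^ 2 + 4 * a ≠ 0 := by
  intro h0
  have key := coeff_zero L hcl hz ![4 * a, 0, 1] (by
    intro i
    fin_cases i
    · exact mul_mem (ofNat_mem L 4) ha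
    · exact L.zero_mem
    · exact L.one_mem) (by
    simp [Fin.sum_univ_succ]
    linear_combination h0)
  exact one_ne_zero (key 2)

include ha hb in
theorem p_ne (hz : z ∉ L) : pp a b z ≠ 0 := by
  unfold pp
  intro h0
  have key := coeff_zero L hcl hz ![2 * b, 3 * a, 0, 1] (by
    intro i
    fin_cases i
    · exact mul_mem (ofNat_mem L 2) hb
    · exact mul_mem (ofNat_mem L 3) ha
    · exact L.zero_mem
    · exact L.one_mem) (by
    simp [Fin.sum_univ_succ]
    linear_combination h0)
  exact one_ne_zero (key 3)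

include ha hb in
theorem n_ne (hz : z ∉ L) : nn a b z ≠ 0 := by
  unfold nn
  intro h0
  have key := coeff_zero L hcl hz ![-16 * b, 12 * a, 0, 1] (by
    intro i
    fin_cases i
    · exact mul_mem (neg_mem (ofNat_mem L 16)) hb
    · exact mul_mem (ofNat_mem L 12) ha
    · exact L.zero_mem
    · exact L.one_mem) (by
    simp [Fin.sum_univ_succ]
    linear_combination h0)
  exact one_ne_zero (key 3)

include hc hd in
theorem q_ne (hz : z ∉ L) : qq c d z ≠ 0 := by
  unfold qq
  intro h0
  have key := coeff_zero L hcl hz ![1, 0, 3 * c, 2 * d] (by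
    intro i
    fin_cases i
    · exact L.one_mem
    · exact L.zero_mem
    · exact mul_mem (ofNat_mem L 3) hc
    · exact mul_mem (ofNat_mem L 2) hd) (by
    simp [Fin.sum_univ_succ]
    linear_combination h0)
  exact one_ne_zero (key 0)

include hc hd in
theorem m_ne (hz : z ∉ L) : mm c d z ≠ 0 := by
  unfold mm
  intro h0
  have key := coeff_zero L hcl hz ![-1, 0, -12 * c, 16 * d] (by
    intro i
    fin_cases i
    · exact neg_mem L.one_mem
    · exact L.zero_mem
    · exact mul_mem (neg_mem (ofNat_mem L 12)) hc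
    · exact mul_mem (ofNat_mem L 16) hd) (by
    simp [Fin.sum_univ_succ]
    linear_combination h0)
  exact neg_ne_zero.2 one_ne_zero (key 0)

/-- The resultant of the two quadratic polynomials. -/
def rr (a b c d z : N) : N :=
  (16 * (2 * d * z - c) * (a * z - 2 * b) * z + (z ^ 2 + 4 * a) * (4 * c * z ^ 2 + 1)) ^ 2 +
    16 * (2 * d * z - c) * (a * z - 2 * b) * (z ^ 3 + 8 * b) * (8 * d * z ^ 3 + 1)

include ha hb hc hd h in
theorem rr_ne (hz : z ∉ L) (hD : c ^ 3 + d ^ 2 ≠ 0) : rr a b c d z ≠ 0 := by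
  unfold rr
  intro h0
  have key := coeff_zero L hcl hz ![16 * a ^ 2 + 256 * b ^ 2 * c,
    128 * a * b * c - 512 * b ^ 2 * d, 8 * a - 256 * a * b * d + 1024 * b ^ 2 * c ^ 2,
    256 * a ^ 2 * d + 96 * b * c - 2048 * b ^ 2 * c * d,
    1 + 16 * a * c - 192 * b * d + 1024 * a * b * c * d,
    256 * b * c ^ 2 + 96 * a * d - 2048 * a * b * d ^ 2,
    8 * c - 256 * b * c * d + 1024 * a ^ 2 * d ^ 2,
    128 * a * c * d - 512 * b * d ^ 2, 16 * c ^ 2 + 256 * a * d ^ 2] (by
    have h8 : ∀ n : ℕ, ∀ [n.AtLeastTwo], (OfNat.ofNat n : N) ∈ L := fun n _ => ofNat_mem L n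
    intro i
    fin_cases i <;>
      simp only [Fin.mk_zero, Fin.reduceFinMk, Matrix.cons_val, Fin.mk_one] <;>
      repeat' first
        | exact ha | exact hb | exact hc | exact hd | exact L.one_mem | apply add_mem
        | apply sub_mem | apply mul_mem | apply pow_mem | exact h8 _) (by
    simp [Fin.sum_univ_succ]
    linear_combination h0)
  have h7 : 128 * a * c * d - 512 * b * d ^ 2 = 0 := key 7
  have h8 : 16 * c ^ 2 + 256 * a * d ^ 2 = 0 := key 8
  haveI : CharZero N := charZero_of_injective_algebraMap (algebraMap ℂ N).injective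
  by_cases hd0 : d = 0
  · rw [hd0] at h8 h
    have h9 : c ^ 2 = 0 := by
      have h10 : (16 : N) * c ^ 2 = 0 := by linear_combination h8
      rcases mul_eq_zero.1 h10 with h11 | h11
      · exact absurd h11 (by norm_num)
      · exact h11
    have h10 : c = 0 := pow_eq_zero_iff two_ne_zero |>.1 h9
    rw [h10] at h
    simp at h
  · apply hD
    have h9 : a * c = 4 * (b * d) := by
      apply mul_left_cancel₀ (mul_ne_zero (show (128 : N) ≠ 0 by norm_num) hd0)
      linear_combination h7
    have h10 : (16 : N) * (c ^ 3 + d ^ 2) = 0 := by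
      linear_combination c * h8 - 64 * d ^ 2 * h9 - 16 * d ^ 2 * h
    rcases mul_eq_zero.1 h10 with h11 | h11
    · exact absurd h11 (by norm_num)
    · exact h11

end

end Vale.Agent.P297.H878
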