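import Vale.Agent.P297.H878.Emb

/-!
The linear system of degree five.
-/

set_option linter.style.haveILetI false
set_option linter.unusedSectionVars false

open CategoryTheory AlgebraicGeometry IntermediateField Polynomial

namespace Vale.Agent.P297.H878

open Vale.Agent.P297 Vale.Agent.P297.H839 Vale.Agent.P297.H516

section Poly

variable {R : Type} [CommRing R]

/-- The quintic polynomial `u (t A² p - B² q)`, `A = α + β X`, `B = γ + δ X`, normalised to be
monic. -/
noncomputable def quin (u t a b c d α β γ δ : R) : R[X] :=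
  X ^ 5 + Polynomial.C (u * (2 * t * α * β - 3 * c * δ ^ 2 - 4 * d * γ * δ)) * X ^ 4 +
    Polynomial.C (u * (t * (α ^ 2 + 3 * a * β ^ 2) - 6 * c * γ * δ - 2 * d * γ ^ 2)) * X ^ 3 +
    Polynomial.C (u * (t * (6 * a * α * β + 2 * b * β ^ 2) - 3 * c * γ ^ 2 - δ ^ 2)) * X ^ 2 +
    Polynomial.C (u * (t * (3 * a * α ^ 2 + 4 * b * α * β) - 2 * γ * δ)) * X +
    Polynomial.C (u * (2 * t * b * α ^ 2 - γ ^ 2))

theorem quin_monic [Nontrivial R] (u t a b c d α β γ δ : R) :
    (quin u t a b c d α β γ δ).Monic := by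
  unfold quin
  monicity!

theorem quin_natDegree [Nontrivial R] (u t a b c d α β γ δ : R) :
    (quin u t a b c d α β γ δ).natDegree = 5 := by
  unfold quin
  compute_degree!

theorem quin_eval {A : Type} [CommRing A] (φ : R →+* A) (u t a b c d α β γ δ : R)
    (hu : u * (t * β ^ 2 - 2 * d * δ ^ 2) = 1) (x : A) :
    (quin u t a b c d α β γ δ).eval₂ φ x = φ u * (φ t * (φ α + φ β * x) ^ 2 *
      pp (φ a) (φ b) x - (φ γ + φ δ * x) ^ 2 * qq (φ c) (φ d) x) := by
  unfold quin pp qq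
  have h1 := congrArg φ hu
  simp only [map_mul, map_sub, map_pow, map_ofNat, map_one] at h1
  simp only [eval₂_add, eval₂_mul, eval₂_pow, eval₂_X, eval₂_C]
  simp only [map_mul, map_sub, map_add, map_pow, map_ofNat]
  linear_combination (-x ^ 5) * h1

end Poly

section

variable {S : Scheme.{0}} {f : S ⟶ Spec (.of ℂ)} [IsProper f] {C : Type} [CommRing C] [Algebra ℂ C]
  [Algebra.FiniteType ℂ C] {j : Spec (.of C) ⟶ S}
  {hj : j ≫ f = Spec.map (CommRingCat.ofHom (algebraMap ℂ C))}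

/-- The relation between the five points. -/
theorem five_good {K N : Type} [Field K] [Algebra ℂ K] [Field N] [Algebra ℂ N] (φ₀ : K →ₐ[ℂ] N)
    (l x y : K) (hind : AlgebraicIndependent ℂ ![l, x])
    (t a b c d : IntermediateField.adjoin ℂ {l}) (ht0 : t ≠ 0)
    (hy : (t : K) * y ^ 2 = pp (a : K) b x * qq (c : K) d x)
    (hy2 : y ^ 2 ∈ IntermediateField.adjoin ℂ (Set.range ![l, x]))
    (hyK : y ∉ IntermediateField.adjoin ℂ (Set.range ![l, x]))
    (hspan : ∀ k : K, ∃ α ∈ IntermediateField.adjoin ℂ (Set.range ![l, x]),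
      ∃ β ∈ IntermediateField.adjoin ℂ (Set.range ![l, x]), k = α + β * y)
    (α β γ δ : N)
    (hlc : φ₀ t * β ^ 2 - 2 * φ₀ d * δ ^ 2 ≠ 0) (p : Fin 5 → N) (hp : Function.Injective p)
    (hpl : ∀ i, AlgebraicIndependent ℂ ![φ₀ l, p i])
    (hroot : ∀ i, φ₀ t * (α + β * p i) ^ 2 * pp (φ₀ a) (φ₀ b) (p i) =
      (γ + δ * p i) ^ 2 * qq (φ₀ c) (φ₀ d) (p i))
    (hB : ∀ i, γ + δ * p i ≠ 0) :
    ∃ φ : Fin 5 → (K →ₐ[ℂ] N), (∀ i (e : IntermediateField.adjoin ℂ {l}), φ i e = φ₀ e) ∧
      (∀ i, φ i x = p i) ∧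
      (∀ i, φ i y * (γ + δ * p i) = - ((α + β * p i) * pp (φ₀ a) (φ₀ b) (p i))) ∧
      ∀ ι : C →ₐ[ℂ] K, ∑ i, Finsupp.single ((φ i).comp ι) (1 : ℤ) ∈ Good f j hj (Rat f) N := by
  classical
  -- the parameters
  obtain ⟨g, hg⟩ : ∃ g : MvPolynomial (Fin 5) ℂ →ₐ[ℂ] N,
    g = MvPolynomial.aeval ![φ₀ l, α, β, γ, δ] := ⟨_, rfl⟩
  let P : Fin 5 → Loc g := fun k => algebraMap (MvPolynomial (Fin 5) ℂ) (Loc g)
    (MvPolynomial.X k)
  have hP : ∀ k, toN g (P k) = ![φ₀ l, α, β, γ, δ] k := by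
    intro k
    change toN g (algebraMap _ _ _) = _
    rw [toN_algebraMap, hg, MvPolynomial.aeval_X]
  have hlind : AlgebraicIndependent ℂ ![l] := by
    have h1 := hind.transcendental 0
    exact algebraicIndependent_unique_type_iff.2 h1
  have hrange : Set.range ![l] = {l} := by simp
  obtain ⟨lam₀, hlam₀⟩ := exists_tau ![l] hlind ![P 0] (by
    intro w hw
    apply isUnit_loc
    have h1 : (toN g).comp (MvPolynomial.aeval (R := ℂ) ![P 0]) =
        φ₀.comp (MvPolynomial.aeval ![l]) := by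
      apply MvPolynomial.algHom_ext
      intro i
      fin_cases i
      rw [AlgHom.comp_apply, AlgHom.comp_apply, MvPolynomial.aeval_X, MvPolynomial.aeval_X]
      exact hP 0
    have h2 := DFunLike.congr_fun h1 w
    rw [AlgHom.comp_apply, AlgHom.comp_apply] at h2
    rw [h2]
    intro h3
    apply hw
    apply hlind
    rw [map_zero]
    apply φ₀.toRingHom.injective
    rw [map_zero]
    exact h3)
  have hadj : IntermediateField.adjoin ℂ {l} ≤ IntermediateField.adjoin ℂ (Set.range ![l]) := by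
    rw [hrange]
  let lam : IntermediateField.adjoin ℂ {l} →ₐ[ℂ] Loc g :=
    lam₀.comp (IntermediateField.inclusion hadj)
  have hlaml : lam ⟨l, IntermediateField.mem_adjoin_simple_self ℂ l⟩ = P 0 := hlam₀ 0
  have hlam : ∀ e : IntermediateField.adjoin ℂ {l}, toN g (lam e) = φ₀ e := by
    have h1 : (toN g).comp lam = φ₀.comp (IntermediateField.adjoin ℂ {l}).val := by
      apply agree_on_gen
      rintro _ rfl
      change toN g (lam ⟨_, _⟩) = φ₀ _
      rw [hlaml]
      exact hP 0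
    exact fun e => DFunLike.congr_fun h1 e
  -- the polynomial
  have hlcu : IsUnit (lam t * P 2 ^ 2 - 2 * lam d * P 4 ^ 2) := by
    apply isUnit_loc
    simp only [map_sub, map_mul, map_pow, map_ofNat, hlam, hP]
    exact hlc
  obtain ⟨u, hu⟩ := hlcu.exists_left_inv
  obtain ⟨F, hF⟩ : ∃ F : (Loc g)[X],
    F = quin u (lam t) (lam a) (lam b) (lam c) (lam d) (P 1) (P 2) (P 3) (P 4) := ⟨_, rfl⟩
  have hFm : F.Monic := by
    rw [hF]
    exact quin_monic _ _ _ _ _ _ _ _ _ _
  have hFd : F.natDegree = 5 := by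
    rw [hF]
    exact quin_natDegree _ _ _ _ _ _ _ _ _ _
  have hFev : ∀ i, F.eval₂ (toN g).toRingHom (p i) = 0 := by
    intro i
    rw [hF, quin_eval _ _ _ _ _ _ _ _ _ _ _ hu]
    change toN g u * (toN g (lam t) * (toN g (P 1) + toN g (P 2) * p i) ^ 2 *
      pp (toN g (lam a)) (toN g (lam b)) (p i) - (toN g (P 3) + toN g (P 4) * p i) ^ 2 *
      qq (toN g (lam c)) (toN g (lam d)) (p i)) = 0
    simp only [hlam, hP]
    have h1 := hroot i
    have h2 : φ₀ t * (α + β * p i) ^ 2 * pp (φ₀ a) (φ₀ b) (p i) -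
      (γ + δ * p i) ^ 2 * qq (φ₀ c) (φ₀ d) (p i) = 0 := by rw [h1, sub_self]
    change toN g u * (φ₀ t * (α + β * p i) ^ 2 * pp (φ₀ a) (φ₀ b) (p i) -
      (γ + δ * p i) ^ 2 * qq (φ₀ c) (φ₀ d) (p i)) = 0
    rw [h2, mul_zero]
  have hprod : F.map (toN g).toRingHom = ∏ i, (X - Polynomial.C (p i)) := by
    apply eq_prod_of_roots _ (hFm.map _) _ _ hp
    · intro i
      rw [IsRoot, Polynomial.eval_map]
      exact hFev i
    · rw [hFm.natDegree_map, hFd]
  -- the point
  let B := AdjoinRoot F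
  let x' : B := AdjoinRoot.root F
  let of' : Loc g →ₐ[ℂ] B := AdjoinRoot.ofAlgHom ℂ F
  have hof' : ∀ r, of' r = AdjoinRoot.of F r := fun r => rfl
  have hBu : IsUnit (of' (P 3) + of' (P 4) * x') := by
    have h1 := isUnit_adjoinRoot hFm p hprod (Polynomial.C (P 3) + Polynomial.C (P 4) * X) (by
      intro i
      simp only [eval₂_add, eval₂_mul, eval₂_C, eval₂_X]
      change toN g (P 3) + toN g (P 4) * p i ≠ 0
      rw [hP, hP]
      exact hB i)
    rw [map_add, map_mul, AdjoinRoot.mk_C, AdjoinRoot.mk_C, AdjoinRoot.mk_X] at h1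
    exact h1
  obtain ⟨v, hv⟩ := hBu.exists_left_inv
  have hrel : of' (lam t) * (of' (P 1) + of' (P 2) * x') ^ 2 *
      pp (of' (lam a)) (of' (lam b)) x' = (of' (P 3) + of' (P 4) * x') ^ 2 *
      qq (of' (lam c)) (of' (lam d)) x' := by
    have h1 : F.eval₂ (AdjoinRoot.of F) (AdjoinRoot.root F) = 0 := AdjoinRoot.eval₂_root F
    have h2 := quin_eval (AdjoinRoot.of F) u (lam t) (lam a) (lam b) (lam c) (lam d) (P 1) (P 2)
      (P 3) (P 4) hu (AdjoinRoot.root F)
    rw [← hF, h1] at h2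
    have h3 : IsUnit (AdjoinRoot.of F u) := by
      apply IsUnit.map
      exact IsUnit.of_mul_eq_one _ hu
    have h4 := (h3.mul_right_eq_zero).1 h2.symm
    exact sub_eq_zero.1 h4
  have hu2 : ∀ w : MvPolynomial (Fin 2) ℂ, w ≠ 0 → IsUnit (MvPolynomial.aeval
      ![(of'.comp lam) ⟨l, IntermediateField.mem_adjoin_simple_self ℂ l⟩, x'] w) := by
    intro w hw
    have h1 := isUnit_adjoinRoot hFm p hprod
      (MvPolynomial.aeval ![Polynomial.C (P 0), (X : (Loc g)[X])] w) (by
      intro i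
      have h2 : ((Polynomial.eval₂AlgHom (toN g) (p i) (fun _ => Commute.all _ _)).comp
          (MvPolynomial.aeval (R := ℂ) ![Polynomial.C (P 0), (X : (Loc g)[X])])) =
          MvPolynomial.aeval ![φ₀ l, p i] := by
        apply MvPolynomial.algHom_ext
        intro k
        rw [AlgHom.comp_apply, MvPolynomial.aeval_X, MvPolynomial.aeval_X]
        fin_cases k
        · change Polynomial.eval₂ _ _ (Polynomial.C (P 0)) = φ₀ l
          rw [eval₂_C]
          exact hP 0
        · change Polynomial.eval₂ _ _ X = p i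
          rw [eval₂_X]
      have h3 := DFunLike.congr_fun h2 w
      intro h4
      apply hw
      apply hpl i
      rw [map_zero]
      exact h3.symm.trans h4)
    have h2 : ((AdjoinRoot.mkₐ F).restrictScalars ℂ).comp (MvPolynomial.aeval (R := ℂ)
        ![Polynomial.C (P 0), (X : (Loc g)[X])]) = MvPolynomial.aeval
        ![(of'.comp lam) ⟨l, IntermediateField.mem_adjoin_simple_self ℂ l⟩, x'] := by
      apply MvPolynomial.algHom_ext
      intro k
      rw [AlgHom.comp_apply, MvPolynomial.aeval_X, MvPolynomial.aeval_X]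
      fin_cases k
      · change AdjoinRoot.mk F (Polynomial.C (P 0)) = of' (lam _)
        rw [AdjoinRoot.mk_C, hlaml]
        rfl
      · exact AdjoinRoot.mk_X
    rw [← h2]
    exact h1
  obtain ⟨Θ, hΘ, hΘx, hΘy⟩ := embed l x y hind t a b c d ht0 hy hy2 hyK hspan (of'.comp lam) x'
    (-((of' (P 1) + of' (P 2) * x') * pp (of' (lam a)) (of' (lam b)) x' * v)) hu2 (by
      change of' (lam t) * (-((of' (P 1) + of' (P 2) * x') * pp (of' (lam a)) (of' (lam b)) x' *
        v)) ^ 2 = pp (of' (lam a)) (of' (lam b)) x' * qq (of' (lam c)) (of' (lam d)) x'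
      linear_combination (pp (of' (lam a)) (of' (lam b)) x' * v ^ 2) * hrel +
        (pp (of' (lam a)) (of' (lam b)) x' * qq (of' (lam c)) (of' (lam d)) x' *
        (v * (of' (P 3) + of' (P 4) * x') + 1)) * hv)
  -- the evaluations
  let ev : Fin 5 → (B →ₐ[ℂ] N) := fun i => AdjoinRoot.liftAlgHom F (toN g) (p i) (hFev i)
  have hevof : ∀ i r, ev i (AdjoinRoot.of F r) = toN g r := fun i r =>
    AdjoinRoot.liftAlgHom_of F (toN g) (p i) (hFev i) r
  have hevroot : ∀ i, ev i (AdjoinRoot.root F) = p i := fun i =>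
    AdjoinRoot.liftAlgHom_root F (toN g) (p i) (hFev i)
  refine ⟨fun i => (ev i).comp Θ, ?_, ?_, ?_, ?_⟩
  · intro i e
    change ev i (Θ e) = _
    rw [hΘ]
    exact (hevof i _).trans (hlam e)
  · intro i
    change ev i (Θ x) = _
    rw [hΘx]
    exact hevroot i
  · intro i
    change ev i (Θ y) * _ = _
    rw [hΘy]
    have h1 := congrArg (ev i) hv
    have e1 : ev i (of' (P 1)) = α := (hevof i _).trans (hP 1)
    have e2 : ev i (of' (P 2)) = β := (hevof i _).trans (hP 2)
    have e3 : ev i (of' (P 3)) = γ := (hevof i _).trans (hP 3)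
    have e4 : ev i (of' (P 4)) = δ := (hevof i _).trans (hP 4)
    have e5 : ev i x' = p i := hevroot i
    have e6 : ev i (pp (of' (lam a)) (of' (lam b)) x') = pp (φ₀ a) (φ₀ b) (p i) := by
      refine (map_pp (ev i).toRingHom _ _ _).trans ?_
      change pp (ev i (of' (lam a))) (ev i (of' (lam b))) (ev i x') = _
      rw [e5, hof', hof', hevof, hevof, hlam, hlam]
    rw [map_mul, map_add, map_mul, map_one, e3, e4, e5] at h1
    rw [map_neg, map_mul, map_mul, map_add, map_mul, e1, e2, e5, e6]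
    linear_combination (-((α + β * p i) * pp (φ₀ a) (φ₀ b) (p i))) * h1
  · intro ι
    have h1 := good_roots (f := f) (j := j) (hj := hj) F hFm p hp hprod (Θ.comp ι) ev hevof hevroot
    exact h1

end

end Vale.Agent.P297.H878
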